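import Mathlib

/-!
Basic definitions for the noiseless memory-sample lower bound.
-/

open MeasureTheory ProbabilityTheory Real Set Filter Topology
open scoped RealInnerProductSpace ENNReal

namespace Vale.Agent.P309

/-- The entropy functional: `∫ u log u - (∫ u) log (∫ u)`. -/
noncomputable def Hent {S : Type*} [MeasurableSpace S] (σ : Measure S) (u : S → ℝ) : ℝ :=
  (∫ s, u s * log (u s) ∂σ) - (∫ s, u s ∂σ) * log (∫ s, u s ∂σ)

/-- Bounded, nonnegative and measurable. -/
structure BddNN {S : Type*} [MeasurableSpace S] (u : S → ℝ) : Prop where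
  meas : Measurable u
  nonneg : ∀ s, 0 ≤ u s
  bdd : ∃ F : ℝ, ∀ s, u s ≤ F

/-- Euclidean space of dimension `d`. -/
abbrev E (d : ℕ) := EuclideanSpace ℝ (Fin d)

/-- The uniform probability measure on the unit sphere, as a measure on `E d`: the law of
`g / ‖g‖` for a standard Gaussian vector `g`. -/
noncomputable def sphereM (d : ℕ) : Measure (E d) :=
  (stdGaussian (E d)).map (fun g => (‖g‖⁻¹ : ℝ) • g)

/-- Blocks of `w` rows. -/
abbrev Rows (d w : ℕ) := Fin w → E d

/-- The law of a block of `w` independent standard Gaussian rows. -/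
noncomputable def rowsM (d w : ℕ) : Measure (Rows d w) :=
  Measure.pi fun _ => stdGaussian (E d)

instance (d w : ℕ) : IsProbabilityMeasure (rowsM d w) := by
  unfold rowsM; infer_instance

/-- The labels of a block of rows. -/
noncomputable def obs {d w : ℕ} (A : Rows d w) (s : E d) : Fin w → ℝ := fun l => ⟪A l, s⟫

/-- The dyadic cell of the labels at scale `2^(-n)`. -/
noncomputable def cell (n : ℕ) {d w : ℕ} (A : Rows d w) (s : E d) : Fin w → ℤ :=
  fun l => ⌊(2 : ℝ) ^ n * ⟪A l, s⟫⌋

/-- Distance from `s` to the subspace `W`. -/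
noncomputable def hdist {d : ℕ} (W : Submodule ℝ (E d)) (s : E d) : ℝ :=
  ‖s - W.starProjection s‖

/-- The span of the replicas of index below `k`. -/
noncomputable def spanBelow {d u : ℕ} (s : Fin (u + 1) → E d) (k : ℕ) : Submodule ℝ (E d) :=
  Submodule.span ℝ (s '' {j | (j : ℕ) < k})

/-- Probability over the rows that all replicas lie in one cell. -/
noncomputable def collide {Ω S ι : Type*} [MeasurableSpace Ω] (γ : Measure Ω) (c : Ω → S → ι)
    {u : ℕ} (s : Fin (u + 1) → S) : ℝ≥0∞ :=
  γ {A | ∀ j, c A (s j) = c A (s 0)}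

end Vale.Agent.P309
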