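import Vale.Agent.P309.Defs

/-!
Elementary properties of the entropy functional `Hent`.
-/

open MeasureTheory ProbabilityTheory Real Set Filter Topology
open scoped RealInnerProductSpace ENNReal

namespace Vale.Agent.P309

variable {S : Type*} [MeasurableSpace S] {σ : Measure S} [IsProbabilityMeasure σ]

omit [IsProbabilityMeasure σ] in
/-- Elementary bounds on `x log x`. -/
lemma abs_mul_log_le {x F : ℝ} (hx : 0 ≤ x) (hxF : x ≤ F) : |x * log x| ≤ 1 + F ^ 2 := by
  have hF : 0 ≤ F := hx.trans hxF
  rcases hx.eq_or_lt with rfl | hpos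
  · simp; positivity
  · have h1 : log x ≤ x := (Real.log_le_sub_one_of_pos hpos).trans (by linarith)
    have h2 : 1 - x⁻¹ ≤ log x := Real.one_sub_inv_le_log_of_pos hpos
    have h3 : x * log x ≤ x * x := mul_le_mul_of_nonneg_left h1 hx
    have h4 : x * (1 - x⁻¹) ≤ x * log x := mul_le_mul_of_nonneg_left h2 hx
    have h5 : x * (1 - x⁻¹) = x - 1 := by field_simp
    rw [abs_le]
    constructor
    · nlinarith [sq_nonneg F]
    · nlinarith [sq_nonneg F]

lemma BddNN.integrable {u : S → ℝ} (hu : BddNN u) : Integrable u σ := by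
  obtain ⟨F, hF⟩ := hu.bdd
  refine Integrable.of_bound hu.meas.aestronglyMeasurable F (ae_of_all _ fun s => ?_)
  rw [Real.norm_eq_abs, abs_of_nonneg (hu.nonneg s)]
  exact hF s

lemma BddNN.measurable_log {u : S → ℝ} (hu : BddNN u) :
    Measurable fun s => u s * log (u s) :=
  hu.meas.mul (Real.measurable_log.comp hu.meas)

lemma BddNN.integrable_log {u : S → ℝ} (hu : BddNN u) :
    Integrable (fun s => u s * log (u s)) σ := by
  obtain ⟨F, hF⟩ := hu.bdd
  refine Integrable.of_bound hu.measurable_log.aestronglyMeasurable (1 + F ^ 2)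
    (ae_of_all _ fun s => ?_)
  rw [Real.norm_eq_abs]
  exact abs_mul_log_le (hu.nonneg s) (hF s)

omit [IsProbabilityMeasure σ] in
lemma BddNN.integral_nonneg {u : S → ℝ} (hu : BddNN u) : 0 ≤ ∫ s, u s ∂σ :=
  MeasureTheory.integral_nonneg hu.nonneg

lemma BddNN.add {u w : S → ℝ} (hu : BddNN u) (hw : BddNN w) : BddNN fun s => u s + w s := by
  obtain ⟨F, hF⟩ := hu.bdd
  obtain ⟨G, hG⟩ := hw.bdd
  exact ⟨hu.meas.add hw.meas, fun s => add_nonneg (hu.nonneg s) (hw.nonneg s),
    F + G, fun s => add_le_add (hF s) (hG s)⟩

lemma BddNN.const_mul {u : S → ℝ} (hu : BddNN u) {c : ℝ} (hc : 0 ≤ c) :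
    BddNN fun s => c * u s := by
  obtain ⟨F, hF⟩ := hu.bdd
  exact ⟨hu.meas.const_mul c, fun s => mul_nonneg hc (hu.nonneg s),
    c * F, fun s => mul_le_mul_of_nonneg_left (hF s) hc⟩

theorem Hent_nonneg {u : S → ℝ} (hu : BddNN u) : 0 ≤ Hent σ u := by
  unfold Hent
  have hJ := Real.convexOn_mul_log.map_integral_le (μ := σ) (f := u)
    (Real.continuous_mul_log.continuousOn) isClosed_Ici
    (ae_of_all _ fun s => hu.nonneg s) hu.integrable hu.integrable_log
  simpa using sub_nonneg.mpr hJ

omit [IsProbabilityMeasure σ] in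
/-- The logarithm of a product, including a vanishing factor. -/
lemma mul_log_mul {c x : ℝ} (hc : 0 < c) (hx : 0 ≤ x) :
    c * x * log (c * x) = c * (x * log x) + (c * log c) * x := by
  rcases hx.eq_or_lt with rfl | hpos
  · simp
  · rw [Real.log_mul hc.ne' hpos.ne']
    ring

theorem Hent_const_mul {u : S → ℝ} (hu : BddNN u) {c : ℝ} (hc : 0 ≤ c) :
    Hent σ (fun s => c * u s) = c * Hent σ u := by
  unfold Hent
  rcases hc.eq_or_lt with rfl | hpos
  · simp
  · have h1 : ∀ s, c * u s * log (c * u s) = c * (u s * log (u s)) + (c * log c) * u s :=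
      fun s => mul_log_mul hpos (hu.nonneg s)
    simp_rw [h1]
    rw [integral_add (hu.integrable_log.const_mul c) (hu.integrable.const_mul _),
      integral_const_mul, integral_const_mul, integral_const_mul,
      mul_log_mul hpos hu.integral_nonneg]
    ring

omit [IsProbabilityMeasure σ] in
theorem Hent_congr_ae {u w : S → ℝ} (h : u =ᵐ[σ] w) : Hent σ u = Hent σ w := by
  unfold Hent
  have h1 : ∫ s, u s ∂σ = ∫ s, w s ∂σ := integral_congr_ae h
  have h2 : ∫ s, u s * log (u s) ∂σ = ∫ s, w s * log (w s) ∂σ := by
    refine integral_congr_ae (h.mono fun s hs => ?_)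
    simp only [hs]
  rw [h1, h2]

/-- A function of integral zero vanishes almost everywhere. -/
lemma BddNN.ae_zero {u : S → ℝ} (hu : BddNN u) (h0 : ∫ s, u s ∂σ = 0) : u =ᵐ[σ] 0 :=
  (integral_eq_zero_iff_of_nonneg hu.nonneg hu.integrable).mp h0

/-- The logarithm of a quotient, including a vanishing numerator. -/
lemma mul_log_div {a U : ℝ} (ha : 0 ≤ a) (hU : 0 < U) :
    a * log (a / U) = a * log a - a * log U := by
  rcases ha.eq_or_lt with rfl | hpos
  · simp
  · rw [Real.log_div hpos.ne' hU.ne']
    ring

/-- The log-sum inequality for two terms. -/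
lemma log_sum {a b U W : ℝ} (ha : 0 ≤ a) (hb : 0 ≤ b) (hU : 0 < U) (hW : 0 < W) :
    (a + b) * log (a + b) - (a + b) * log (U + W) ≤
      (a * log a - a * log U) + (b * log b - b * log W) := by
  have hUW : 0 < U + W := add_pos hU hW
  have hJ := Real.convexOn_mul_log.2 (show a / U ∈ Set.Ici (0 : ℝ) from div_nonneg ha hU.le)
    (show b / W ∈ Set.Ici (0 : ℝ) from div_nonneg hb hW.le)
    (show 0 ≤ U / (U + W) from by positivity) (show 0 ≤ W / (U + W) from by positivity)
    (by field_simp)
  simp only [smul_eq_mul] at hJ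
  have h1 : U / (U + W) * (a / U) + W / (U + W) * (b / W) = (a + b) / (U + W) := by
    field_simp
  rw [h1] at hJ
  have h2 := mul_le_mul_of_nonneg_left hJ hUW.le
  have h3 : (U + W) * ((a + b) / (U + W) * log ((a + b) / (U + W))) =
      (a + b) * log ((a + b) / (U + W)) := by
    field_simp
  have h4 : (U + W) * (U / (U + W) * (a / U * log (a / U)) +
      W / (U + W) * (b / W * log (b / W))) = a * log (a / U) + b * log (b / W) := by
    field_simp
  rw [h3, h4, mul_log_div (add_nonneg ha hb) hUW, mul_log_div ha hU, mul_log_div hb hW] at h2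
  exact h2

theorem Hent_add_le {u w : S → ℝ} (hu : BddNN u) (hw : BddNN w) :
    Hent σ (fun s => u s + w s) ≤ Hent σ u + Hent σ w := by
  rcases hu.integral_nonneg (σ := σ) |>.eq_or_lt with h0 | hU
  · -- `u` vanishes almost everywhere
    have hz := hu.ae_zero h0.symm
    have h1 : (fun s => u s + w s) =ᵐ[σ] w := hz.mono fun s hs => by simp [hs]
    have h2 : Hent σ u = 0 := by
      rw [Hent_congr_ae hz]; simp [Hent]
    rw [Hent_congr_ae h1, h2, zero_add]
  rcases hw.integral_nonneg (σ := σ) |>.eq_or_lt with h0 | hW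
  · have hz := hw.ae_zero h0.symm
    have h1 : (fun s => u s + w s) =ᵐ[σ] u := hz.mono fun s hs => by simp [hs]
    have h2 : Hent σ w = 0 := by
      rw [Hent_congr_ae hz]; simp [Hent]
    rw [Hent_congr_ae h1, h2, add_zero]
  unfold Hent
  set U := ∫ s, u s ∂σ with hUdef
  set W := ∫ s, w s ∂σ with hWdef
  have hsum : ∫ s, (u s + w s) ∂σ = U + W := integral_add hu.integrable hw.integrable
  rw [hsum]
  have hpt : ∀ s, (u s + w s) * log (u s + w s) ≤
      (u s * log (u s) - u s * log U) + (w s * log (w s) - w s * log W) +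
        (u s + w s) * log (U + W) := by
    intro s
    have := log_sum (hu.nonneg s) (hw.nonneg s) hU hW
    linarith
  have hA : Integrable (fun s => u s * log (u s) - u s * log U) σ :=
    hu.integrable_log.sub (hu.integrable.mul_const _)
  have hB : Integrable (fun s => w s * log (w s) - w s * log W) σ :=
    hw.integrable_log.sub (hw.integrable.mul_const _)
  have hC : Integrable (fun s => (u s + w s) * log (U + W)) σ :=
    (hu.integrable.add hw.integrable).mul_const _
  have hAB : Integrable (fun s => (u s * log (u s) - u s * log U) +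
      (w s * log (w s) - w s * log W)) σ := hA.add hB
  have hABC : Integrable (fun s => (u s * log (u s) - u s * log U) +
      (w s * log (w s) - w s * log W) + (u s + w s) * log (U + W)) σ := hAB.add hC
  have hint : ∫ s, (u s + w s) * log (u s + w s) ∂σ ≤ ∫ s, (u s * log (u s) - u s * log U) +
      (w s * log (w s) - w s * log W) + (u s + w s) * log (U + W) ∂σ :=
    integral_mono ((hu.add hw).integrable_log (σ := σ)) hABC hpt
  rw [integral_add hAB hC, integral_add hA hB,
    integral_sub hu.integrable_log (hu.integrable.mul_const _),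
    integral_sub hw.integrable_log (hw.integrable.mul_const _),
    integral_mul_const, integral_mul_const, integral_mul_const, hsum] at hint
  linarith

theorem Hent_sum_le {α : Type*} (t : Finset α) {u : α → S → ℝ} (hu : ∀ a, BddNN (u a)) :
    Hent σ (fun s => ∑ a ∈ t, u a s) ≤ ∑ a ∈ t, Hent σ (u a) := by
  classical
  have hB : ∀ t : Finset α, BddNN fun s => ∑ a ∈ t, u a s := by
    intro t
    induction t using Finset.induction_on with
    | empty => exact ⟨by simp, by simp, 0, by simp⟩
    | insert a t ha ih =>
      simp_rw [Finset.sum_insert ha]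
      exact (hu a).add ih
  induction t using Finset.induction_on with
  | empty => simp [Hent]
  | insert a t ha ih =>
    simp_rw [Finset.sum_insert ha]
    exact (Hent_add_le (hu a) (hB t)).trans (add_le_add_right ih _)

/-- Fano type bound. -/
theorem fano {u : S → ℝ} (hu : BddNN u) {C : Set S} (hC : MeasurableSet C) {κ : ℝ} (hκ : 0 < κ)
    (hκ1 : κ ≤ 1) (hσC : σ.real C ≤ κ) :
    (∫ s in C, u s ∂σ) * log (1 / κ) ≤ Hent σ u + (∫ s, u s ∂σ) * log 2 := by
  rcases hu.integral_nonneg (σ := σ) |>.eq_or_lt with h0 | hU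
  · have hz := hu.ae_zero h0.symm
    have h1 : ∫ s in C, u s ∂σ = 0 := by
      rw [setIntegral_congr_ae (g := fun _ => (0 : ℝ)) hC (hz.mono fun s hs _ => by simpa using hs)]
      simp
    rw [h1, ← h0]
    simpa using Hent_nonneg hu
  set U := ∫ s, u s ∂σ with hUdef
  set ψ : S → ℝ := fun s => C.indicator (fun _ => 1 / κ) s + Cᶜ.indicator (fun _ => 1) s with hψ
  have hψpos : ∀ s, 0 < ψ s := by
    intro s
    by_cases hs : s ∈ C
    · simp [hψ, hs, hκ]
    · simp [hψ, hs]
  have hψint : Integrable ψ σ :=
    ((integrable_const _).indicator hC).add ((integrable_const _).indicator hC.compl)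
  have hψmass : ∫ s, ψ s ∂σ ≤ 2 := by
    rw [integral_add ((integrable_const _).indicator hC) ((integrable_const _).indicator hC.compl),
      integral_indicator_const _ hC, integral_indicator_const _ hC.compl]
    simp only [smul_eq_mul, mul_one]
    have h1 : σ.real C * (1 / κ) ≤ 1 := by
      rw [mul_one_div, div_le_one hκ]; exact hσC
    have h2 : σ.real Cᶜ ≤ 1 := measureReal_le_one
    linarith
  have hpt : ∀ s, C.indicator u s * log (1 / κ) ≤
      u s * log (u s) - u s * log U + u s * log 2 + (U / 2) * ψ s - u s := by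
    intro s
    have hψs := hψpos s
    have hus := hu.nonneg s
    have hlogψ : C.indicator u s * log (1 / κ) = u s * log (ψ s) := by
      by_cases hs : s ∈ C
      · simp [hψ, hs]
      · simp [hψ, hs]
    rw [hlogψ]
    rcases hus.eq_or_lt with h0 | hpos
    · rw [← h0]
      have : 0 ≤ U / 2 * ψ s := by positivity
      simpa using this
    · have h1 := Real.log_le_sub_one_of_pos
        (show 0 < ψ s * U / (2 * u s) by positivity)
      rw [Real.log_div (by positivity) (by positivity), Real.log_mul hψs.ne' hU.ne',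
        Real.log_mul (by norm_num) hpos.ne'] at h1
      have h2 := mul_le_mul_of_nonneg_left h1 hpos.le
      have h3 : u s * (ψ s * U / (2 * u s) - 1) = U / 2 * ψ s - u s := by
        field_simp
      rw [h3] at h2
      nlinarith
  have hLint : Integrable (fun s => C.indicator u s * log (1 / κ)) σ :=
    (hu.integrable.indicator hC).mul_const _
  have hA : Integrable (fun s => u s * log (u s) - u s * log U) σ :=
    hu.integrable_log.sub (hu.integrable.mul_const _)
  have hB : Integrable (fun s => u s * log (u s) - u s * log U + u s * log 2) σ :=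
    hA.add (hu.integrable.mul_const _)
  have hD : Integrable (fun s => u s * log (u s) - u s * log U + u s * log 2 + (U / 2) * ψ s) σ :=
    hB.add (hψint.const_mul _)
  have hRint : Integrable (fun s => u s * log (u s) - u s * log U + u s * log 2 +
      (U / 2) * ψ s - u s) σ := hD.sub hu.integrable
  have hI := integral_mono hLint hRint hpt
  rw [integral_mul_const, integral_indicator hC,
    integral_sub hD hu.integrable,
    integral_add hB (hψint.const_mul _),
    integral_add hA (hu.integrable.mul_const _),
    integral_sub hu.integrable_log (hu.integrable.mul_const _),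
    integral_mul_const, integral_mul_const, integral_const_mul] at hI
  have h4 : U / 2 * ∫ s, ψ s ∂σ ≤ U := by
    have : U / 2 * ∫ s, ψ s ∂σ ≤ U / 2 * 2 := mul_le_mul_of_nonneg_left hψmass (by positivity)
    linarith
  unfold Hent
  rw [← hUdef]
  linarith

/-- Continuity of the entropy functional under bounded `L¹` convergence. -/
theorem Hent_tendsto {u : ℕ → S → ℝ} {w : S → ℝ} {F : ℝ} (hu : ∀ n, BddNN (u n)) (hw : BddNN w)
    (huF : ∀ n s, u n s ≤ F) (hwF : ∀ s, w s ≤ F)
    (hlim : Tendsto (fun n => ∫ s, |u n s - w s| ∂σ) atTop (𝓝 0)) :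
    Tendsto (fun n => Hent σ (u n)) atTop (𝓝 (Hent σ w)) := by
  have hUint : ∀ n, Integrable (fun s => |u n s - w s|) σ := fun n =>
    ((hu n).integrable.sub hw.integrable).abs
  -- the integrals converge
  have hmean : Tendsto (fun n => ∫ s, u n s ∂σ) atTop (𝓝 (∫ s, w s ∂σ)) := by
    rw [tendsto_iff_dist_tendsto_zero]
    refine squeeze_zero (fun n => dist_nonneg) (fun n => ?_) hlim
    rw [Real.dist_eq, ← integral_sub (hu n).integrable hw.integrable]
    exact abs_integral_le_integral_abs
  have hφmean : Tendsto (fun n => (∫ s, u n s ∂σ) * log (∫ s, u n s ∂σ)) atTop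
      (𝓝 ((∫ s, w s ∂σ) * log (∫ s, w s ∂σ))) :=
    Real.continuous_mul_log.continuousAt.tendsto.comp hmean
  -- the main term
  have hmain : Tendsto (fun n => ∫ s, u n s * log (u n s) ∂σ) atTop
      (𝓝 (∫ s, w s * log (w s) ∂σ)) := by
    rw [Metric.tendsto_atTop]
    intro ε hε
    have hS : Nonempty S := by
      by_contra hne
      rw [not_nonempty_iff] at hne
      have : σ Set.univ = 0 := by
        rw [Set.univ_eq_empty_iff.mpr hne]; simp
      simp at this
    have hF0 : 0 ≤ F := (hw.nonneg hS.some).trans (hwF hS.some)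
    have hcomp : IsCompact (Set.Icc (0 : ℝ) F) := isCompact_Icc
    have huc := hcomp.uniformContinuousOn_of_continuous
      (f := fun x : ℝ => x * log x) Real.continuous_mul_log.continuousOn
    rw [Metric.uniformContinuousOn_iff] at huc
    obtain ⟨δ, hδ, hδε⟩ := huc (ε / 3) (by positivity)
    set B : ℝ := 2 * (1 + F ^ 2) with hB
    have hB0 : 0 < B := by positivity
    have hpt : ∀ n s, |u n s * log (u n s) - w s * log (w s)| ≤
        ε / 3 + (B / δ) * |u n s - w s| := by
      intro n s
      have h1 := (hu n).nonneg s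
      have h2 := hw.nonneg s
      by_cases hclose : |u n s - w s| < δ
      · have h3 := hδε (u n s) ⟨h1, huF n s⟩ (w s) ⟨h2, hwF s⟩ (by rwa [Real.dist_eq])
        rw [Real.dist_eq] at h3
        have : 0 ≤ B / δ * |u n s - w s| := by positivity
        linarith
      · push Not at hclose
        have h3 : |u n s * log (u n s) - w s * log (w s)| ≤ B := by
          have h4 := abs_mul_log_le h1 (huF n s)
          have h5 := abs_mul_log_le h2 (hwF s)
          calc _ ≤ |u n s * log (u n s)| + |w s * log (w s)| := abs_sub _ _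
            _ ≤ B := by rw [hB]; linarith
        have h6 : B ≤ B / δ * |u n s - w s| := by
          rw [div_mul_eq_mul_div, le_div_iff₀ hδ]
          exact mul_le_mul_of_nonneg_left hclose hB0.le
        have : 0 ≤ ε / 3 := by positivity
        linarith
    have hbound : ∀ n, |∫ s, u n s * log (u n s) ∂σ - ∫ s, w s * log (w s) ∂σ| ≤
        ε / 3 + (B / δ) * ∫ s, |u n s - w s| ∂σ := by
      intro n
      rw [← integral_sub (hu n).integrable_log hw.integrable_log]
      refine abs_integral_le_integral_abs.trans ?_
      have hi1 : Integrable (fun s => |u n s * log (u n s) - w s * log (w s)|) σ :=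
        ((hu n).integrable_log.sub hw.integrable_log).abs
      have hi2 : Integrable (fun s => ε / 3 + B / δ * |u n s - w s|) σ :=
        (integrable_const (ε / 3)).add ((hUint n).const_mul (B / δ))
      have hI : ∫ s, |u n s * log (u n s) - w s * log (w s)| ∂σ ≤
          ∫ s, ε / 3 + B / δ * |u n s - w s| ∂σ := integral_mono hi1 hi2 (hpt n)
      rw [integral_add (integrable_const _) ((hUint n).const_mul _), integral_const_mul] at hI
      simpa using hI
    have hsmall : Tendsto (fun n => (B / δ) * ∫ s, |u n s - w s| ∂σ) atTop (𝓝 0) := by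
      simpa using hlim.const_mul (B / δ)
    obtain ⟨N, hN⟩ := (Metric.tendsto_atTop.mp hsmall) (ε / 3) (by positivity)
    refine ⟨N, fun n hn => ?_⟩
    have h1 := hN n hn
    rw [Real.dist_eq, sub_zero] at h1
    have h2 := le_abs_self ((B / δ) * ∫ s, |u n s - w s| ∂σ)
    rw [Real.dist_eq]
    have h3 := hbound n
    linarith
  unfold Hent
  exact hmain.sub hφmean

end Vale.Agent.P309
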