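import Vale.Agent.P309.GainC

/-!
The abstract gain inequality on a partition.
-/

open MeasureTheory ProbabilityTheory Real Set Filter Topology
open scoped RealInnerProductSpace ENNReal

namespace Vale.Agent.P309

set_option linter.unusedSectionVars false

variable {Ω S ι V : Type*} [MeasurableSpace Ω] [MeasurableSpace S] [MeasurableSpace ι]
  [Countable ι] [MeasurableSingletonClass ι] [Fintype V]

theorem gain (γ : Measure Ω) [IsProbabilityMeasure γ] (σ : Measure S) [IsProbabilityMeasure σ]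
    (c : Ω → S → ι) (hc : Measurable (Function.uncurry c))
    (φ : V → Ω → ι → ℝ) (hφm : ∀ v, Measurable (Function.uncurry (φ v)))
    (hφ0 : ∀ v A i, 0 ≤ φ v A i) (hφ1 : ∀ A i, ∑ v, φ v A i = 1)
    (f : S → ℝ) (hf : BddNN f) (hf1 : ∫ s, f s ∂σ = 1)
    (G : Set (Ω × ι)) (hG : MeasurableSet G)
    {τ : ℝ} (hτ : 0 < τ) (hGτ : ∀ A i, (A, i) ∈ G → τ ≤ σ.real {s | c A s = i})
    {β : ℝ} (hβ0 : 0 ≤ β) (hβ1 : β ≤ 1) (hβ : ∀ᵐ s ∂σ, γ.real {A | (A, c A s) ∉ G} ≤ β)
    (u : ℕ) {Mm : ℝ} (hMm : 1 ≤ Mm)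
    (hW : (∫⁻ s : Fin (u + 1) → S, (collide γ c s) ^ (3 / 2 : ℝ) ∂(Measure.pi fun _ => σ)) ^
      (2 / 3 : ℝ) ≤ ENNReal.ofReal (Mm * τ ^ u)) :
    ∑ v, Hent σ (fun s => f s * ∫ A, φ v A (c A s) ∂γ) ≤
      (3 + β) * (∫ s, f s * log (f s) ∂σ) + (3 / ((u : ℝ) + 1) + β) * log (Fintype.card V) +
        (3 / ((u : ℝ) + 1)) * log Mm + 8 := by
  classical
  have hΩ : Nonempty Ω := by
    by_contra h
    have : IsEmpty Ω := not_nonempty_iff.1 h
    have h1 : γ univ = 1 := measure_univ
    simp [Measure.eq_zero_of_isEmpty γ] at h1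
  have hS : Nonempty S := by
    by_contra h
    have : IsEmpty S := not_nonempty_iff.1 h
    have h1 : σ univ = 1 := measure_univ
    simp [Measure.eq_zero_of_isEmpty σ] at h1
  obtain ⟨A₀⟩ := hΩ
  obtain ⟨s₀⟩ := hS
  have hV : Nonempty V := by
    by_contra h
    have : IsEmpty V := not_nonempty_iff.1 h
    have := hφ1 A₀ (c A₀ s₀)
    simp at this
  have hfB := BM.of_bddNN hf
  obtain ⟨F, hF⟩ := hfB.bdd
  have hφ1' : ∀ v A i, φ v A i ≤ 1 := fun v A i => by
    rw [← hφ1 A i]
    exact Finset.single_le_sum (f := fun v => φ v A i) (fun w _ => hφ0 w A i) (Finset.mem_univ v)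
  -- the indicator of the good set
  set Gi : Ω → ι → ℝ := fun A i => if (A, i) ∈ G then 1 else 0 with hGi
  have hGim : Measurable (Function.uncurry Gi) :=
    Measurable.ite hG measurable_const measurable_const
  have hGi0 : ∀ A i, 0 ≤ Gi A i := fun A i => by simp only [hGi]; split_ifs <;> norm_num
  have hGi1 : ∀ A i, Gi A i ≤ 1 := fun A i => by simp only [hGi]; split_ifs <;> norm_num
  set θ : V → Ω → ι → ℝ := fun v A i => Gi A i * φ v A i with hθ
  have hθm : ∀ v, Measurable (Function.uncurry (θ v)) := fun v => hGim.mul (hφm v)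
  have hθ0 : ∀ v A i, 0 ≤ θ v A i := fun v A i => mul_nonneg (hGi0 A i) (hφ0 v A i)
  have hθsum : ∀ A i, ∑ v, θ v A i = Gi A i := fun A i => by
    simp only [hθ]
    rw [← Finset.mul_sum, hφ1, mul_one]
  have hθS : ∀ A i, ∑ v, θ v A i ≤ 1 := fun A i => by rw [hθsum]; exact hGi1 A i
  have hθτ : ∀ v A i, 0 < θ v A i → τ ≤ σ.real {s | c A s = i} := by
    intro v A i hpos
    apply hGτ
    by_contra hn
    simp [hθ, hGi, hn] at hpos
  have hgood := good_part γ σ c hc θ hθm hθ0 hθS hτ hθτ hf hf1 u hMm hW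
  -- the bad rule
  set θb : V → Ω → ι → ℝ := fun v A i => (1 - Gi A i) * φ v A i with hθb
  have hθbm : ∀ v, Measurable (Function.uncurry (θb v)) := fun v =>
    (measurable_const.sub hGim).mul (hφm v)
  have hθb0 : ∀ v A i, 0 ≤ θb v A i := fun v A i =>
    mul_nonneg (by linarith [hGi1 A i]) (hφ0 v A i)
  have hθb1 : ∀ v A i, θb v A i ≤ 1 := fun v A i => by
    have h1 := hGi0 A i
    have h2 := hGi1 A i
    have h3 := hφ0 v A i
    have h4 := hφ1' v A i
    simp only [hθb]
    nlinarith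
  have hcomp : ∀ (h : Ω → ι → ℝ), Measurable (Function.uncurry h) →
      Measurable (fun q : S × Ω => h q.2 (c q.2 q.1)) := fun h hh =>
    hh.comp (measurable_snd.prodMk (hc.comp (measurable_snd.prodMk measurable_fst)))
  have hintθb : ∀ v s, Integrable (fun A => θb v A (c A s)) γ := fun v s => by
    have hB : BM (fun A => θb v A (c A s)) := by
      refine ⟨(hcomp _ (hθbm v)).comp (measurable_const.prodMk measurable_id), 1, fun A => ?_⟩
      rw [abs_of_nonneg (hθb0 _ _ _)]
      exact hθb1 _ _ _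
    exact hB.integrable γ
  have hintθ : ∀ v s, Integrable (fun A => θ v A (c A s)) γ := fun v s => by
    have hB : BM (fun A => θ v A (c A s)) := by
      refine ⟨(hcomp _ (hθm v)).comp (measurable_const.prodMk measurable_id), 1, fun A => ?_⟩
      rw [abs_of_nonneg (hθ0 _ _ _)]
      have h1 := hGi1 A (c A s)
      have h3 := hφ0 v A (c A s)
      have h4 := hφ1' v A (c A s)
      have h5 := hGi0 A (c A s)
      simp only [hθ]
      nlinarith
    exact hB.integrable γ
  set mb : V → S → ℝ := fun v s => ∫ A, θb v A (c A s) ∂γ with hmb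
  have hmbm : ∀ v, Measurable (mb v) := fun v =>
    ((hcomp _ (hθbm v)).stronglyMeasurable.integral_prod_right (ν := γ)).measurable
  have hmb0 : ∀ v s, 0 ≤ mb v s := fun v s => integral_nonneg fun A => hθb0 _ _ _
  have hmb1 : ∀ v s, mb v s ≤ 1 := fun v s => by
    calc mb v s ≤ ∫ _A : Ω, (1 : ℝ) ∂γ :=
          integral_mono (hintθb v s) (integrable_const _) fun A => hθb1 _ _ _
      _ = 1 := by simp
  set mg : V → S → ℝ := fun v s => ∫ A, θ v A (c A s) ∂γ with hmg
  have hmgm : ∀ v, Measurable (mg v) := fun v =>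
    ((hcomp _ (hθm v)).stronglyMeasurable.integral_prod_right (ν := γ)).measurable
  have hmg0 : ∀ v s, 0 ≤ mg v s := fun v s => integral_nonneg fun A => hθ0 _ _ _
  -- the probability of the bad set
  have hmeasbad : ∀ s, MeasurableSet {A | (A, c A s) ∉ G} := fun s =>
    (measurable_id.prodMk (hc.comp (measurable_id.prodMk measurable_const))) hG.compl
  set bad : S → ℝ := fun s => γ.real {A | (A, c A s) ∉ G} with hbad
  have hbad_eq : ∀ s, ∫ A, (1 - Gi A (c A s)) ∂γ = bad s := by
    intro s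
    have : ∀ A, 1 - Gi A (c A s) = ({A | (A, c A s) ∉ G}).indicator (fun _ => (1 : ℝ)) A := by
      intro A
      by_cases h : (A, c A s) ∈ G
      · simp [hGi, h]
      · simp [hGi, h]
    simp_rw [this]
    rw [integral_indicator (hmeasbad s)]
    simp [hbad]
  have hsummb : ∀ s, ∑ v, mb v s = bad s := by
    intro s
    rw [← hbad_eq s]
    simp only [hmb]
    rw [← integral_finsetSum _ fun v _ => hintθb v s]
    refine integral_congr_ae (ae_of_all _ fun A => ?_)
    simp only [hθb]
    rw [← Finset.mul_sum, hφ1, mul_one]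
  have hbadpart := bad_part (σ := σ) hf hf1 mb hmbm hmb0 hmb1 hβ0 (by
    filter_upwards [hβ] with s hs
    rw [hsummb]
    exact hs)
  -- the decomposition
  have hdec : ∀ v s, f s * ∫ A, φ v A (c A s) ∂γ = f s * mg v s + f s * mb v s := by
    intro v s
    rw [← mul_add]
    congr 1
    simp only [hmg, hmb]
    rw [← integral_add (hintθ v s) (hintθb v s)]
    refine integral_congr_ae (ae_of_all _ fun A => ?_)
    simp only [hθ, hθb]
    ring
  have hugN : ∀ v, BddNN (fun s => f s * mg v s) := by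
    intro v
    refine ⟨hf.meas.mul (hmgm v), fun s => mul_nonneg (hf.nonneg s) (hmg0 v s), F, fun s => ?_⟩
    have h2 : mg v s ≤ 1 := by
      calc mg v s ≤ ∫ _A : Ω, (1 : ℝ) ∂γ :=
            integral_mono (hintθ v s) (integrable_const _) fun A => by
              have h1 := hGi1 A (c A s)
              have h3 := hφ0 v A (c A s)
              have h4 := hφ1' v A (c A s)
              have h5 := hGi0 A (c A s)
              simp only [hθ]
              nlinarith
        _ = 1 := by simp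
    have h3 := hf.nonneg s
    have h4 := hmg0 v s
    have h5 := (le_abs_self _).trans (hF s)
    nlinarith
  have hubN : ∀ v, BddNN (fun s => f s * mb v s) := by
    intro v
    refine ⟨hf.meas.mul (hmbm v), fun s => mul_nonneg (hf.nonneg s) (hmb0 v s), F, fun s => ?_⟩
    have h2 := hmb1 v s
    have h3 := hf.nonneg s
    have h4 := hmb0 v s
    have h5 := (le_abs_self _).trans (hF s)
    nlinarith
  have hsplit : ∑ v, Hent σ (fun s => f s * ∫ A, φ v A (c A s) ∂γ) ≤
      ∑ v, Hent σ (fun s => f s * mg v s) + ∑ v, Hent σ (fun s => f s * mb v s) := by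
    rw [← Finset.sum_add_distrib]
    refine Finset.sum_le_sum fun v _ => ?_
    have : (fun s => f s * ∫ A, φ v A (c A s) ∂γ) = fun s => f s * mg v s + f s * mb v s :=
      funext (hdec v)
    rw [this]
    exact Hent_add_le (hugN v) (hubN v)
  -- the term `T_A`
  set H := ∫ s, f s * log (f s) ∂σ with hH
  set e₁ := rexp (-1) with he₁
  have he₁0 : 0 < e₁ := Real.exp_pos _
  have he₁le : e₁ ≤ 3 / 8 := exp_neg_one_le
  have hflf : BM (fun s => f s * log (f s)) := hfB.mul_log hf.nonneg
  have hTA : ∫ p, (∑ v, θ v p.1 (c p.1 p.2)) * (f p.2 * log (f p.2)) ∂(γ.prod σ) ≤ H + β * e₁ := by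
    have hθp : BM (fun p : Ω × S => ∑ v, θ v p.1 (c p.1 p.2)) := by
      apply BM.sum
      intro v
      refine ⟨(hθm v).comp (measurable_fst.prodMk hc), 1, fun p => ?_⟩
      rw [abs_of_nonneg (hθ0 _ _ _)]
      have h1 := hGi1 p.1 (c p.1 p.2)
      have h3 := hφ0 v p.1 (c p.1 p.2)
      have h4 := hφ1' v p.1 (c p.1 p.2)
      have h5 := hGi0 p.1 (c p.1 p.2)
      simp only [hθ]
      nlinarith
    have hB := hθp.mul (hflf.comp measurable_snd)
    rw [integral_prod_symm _ (hB.integrable _)]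
    have hH' : H + β * e₁ = ∫ s, (f s * log (f s) + β * e₁) ∂σ := by
      rw [integral_add (hflf.integrable σ) (integrable_const _)]
      simp [hH]
    rw [hH']
    have hswapB : BM (fun q : S × Ω => (∑ v, θ v q.2 (c q.2 q.1)) * (f q.1 * log (f q.1))) :=
      hB.comp (measurable_snd.prodMk measurable_fst)
    refine integral_mono_ae (hswapB.integral_right γ |>.integrable σ)
      ((hflf.add (BM.const _)).integrable σ) ?_
    filter_upwards [hβ] with s hs
    have e1 : ∀ A, (∑ v, θ v A (c A s)) * (f s * log (f s)) =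
        Gi A (c A s) * (f s * log (f s)) := fun A => by rw [hθsum]
    simp_rw [e1]
    rw [integral_mul_const]
    have e2 : ∫ A, Gi A (c A s) ∂γ = 1 - bad s := by
      rw [← hbad_eq s, integral_sub (integrable_const _) _]
      · simp
      · have hB2 : BM (fun A => Gi A (c A s)) := by
          refine ⟨hGim.comp (measurable_id.prodMk (hc.comp (measurable_id.prodMk measurable_const))),
            1, fun A => ?_⟩
          rw [abs_of_nonneg (hGi0 _ _)]
          exact hGi1 _ _
        exact hB2.integrable γ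
    rw [e2]
    have h1 := neg_exp_le_mul_log (hf.nonneg s)
    rw [← he₁] at h1
    have hb0 : 0 ≤ bad s := measureReal_nonneg
    have hs' : bad s ≤ β := hs
    nlinarith
  -- arithmetic
  have hNpos : (0 : ℝ) < (u : ℝ) + 1 := by positivity
  have hN1 : (1 : ℝ) ≤ (u : ℝ) + 1 := by
    have : (0 : ℝ) ≤ u := Nat.cast_nonneg u
    linarith
  have hcard : (1 : ℝ) ≤ Fintype.card V := by exact_mod_cast Fintype.card_pos
  have hcard0 : (0 : ℝ) < Fintype.card V := by linarith
  have h2p : (0 : ℝ) < (2 : ℝ) ^ (((u : ℝ) + 1) / 3) := by positivity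
  have hMm0 : 0 < Mm := by linarith
  have hlogCC : log ((Fintype.card V : ℝ) * (2 : ℝ) ^ (((u : ℝ) + 1) / 3) * Mm) =
      log (Fintype.card V) + ((u : ℝ) + 1) / 3 * log 2 + log Mm := by
    rw [Real.log_mul (mul_pos hcard0 h2p).ne' hMm0.ne', Real.log_mul hcard0.ne' h2p.ne',
      Real.log_rpow (by norm_num)]
  rw [hlogCC] at hgood
  have hlog2 : log 2 ≤ 0.6932 := by
    have := Real.log_two_lt_d9
    linarith
  have hdiv : (1 + (log (Fintype.card V) + ((u : ℝ) + 1) / 3 * log 2 + log Mm)) / ((u : ℝ) + 1) =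
      1 / ((u : ℝ) + 1) + (1 / ((u : ℝ) + 1)) * log (Fintype.card V) + log 2 / 3 +
        (1 / ((u : ℝ) + 1)) * log Mm := by
    field_simp
    ring
  rw [hdiv] at hgood
  have h1N : 1 / ((u : ℝ) + 1) ≤ 1 := by
    rw [div_le_one hNpos]
    exact hN1
  have e3 : 3 / ((u : ℝ) + 1) = 3 * (1 / ((u : ℝ) + 1)) := by ring
  rw [e3]
  have hbe : β * e₁ ≤ 3 / 8 := by nlinarith
  nlinarith

end Vale.Agent.P309
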