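import Vale.Agent.P309.GainTools

/-!
The bad part of the gain inequality and the replica bound.
-/

open MeasureTheory ProbabilityTheory Real Set Filter Topology
open scoped RealInnerProductSpace ENNReal

namespace Vale.Agent.P309

set_option linter.unusedSectionVars false

lemma neg_exp_le_mul_log {x : ℝ} (hx : 0 ≤ x) : - rexp (-1) ≤ x * log x := by
  have h := mul_log_ineq hx (Real.exp_pos (-1))
  rw [Real.log_exp] at h
  linarith

lemma exp_neg_one_le : rexp (-1) ≤ 3 / 8 := by
  have h := Real.exp_one_gt_d9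
  rw [Real.exp_neg, inv_le_comm₀ (Real.exp_pos 1) (by norm_num)]
  norm_num
  linarith

section Bad

variable {S V : Type*} [MeasurableSpace S] [Fintype V]

/-- The bad part. -/
theorem bad_part {σ : Measure S} [IsProbabilityMeasure σ] [Nonempty V]
    {f : S → ℝ} (hf : BddNN f) (hf1 : ∫ s, f s ∂σ = 1)
    (mb : V → S → ℝ) (hm : ∀ v, Measurable (mb v)) (h0 : ∀ v s, 0 ≤ mb v s)
    (h1 : ∀ v s, mb v s ≤ 1) {β : ℝ} (hβ0 : 0 ≤ β) (hβ : ∀ᵐ s ∂σ, ∑ v, mb v s ≤ β) :
    ∑ v, Hent σ (fun s => f s * mb v s) ≤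
      β * ((∫ s, f s * log (f s) ∂σ) + rexp (-1) + log (Fintype.card V)) + 1 := by
  have hfB := BM.of_bddNN hf
  have hmB : ∀ v, BM (mb v) := fun v =>
    ⟨hm v, 1, fun s => by rw [abs_of_nonneg (h0 v s)]; exact h1 v s⟩
  have huB : ∀ v, BM (fun s => f s * mb v s) := fun v => hfB.mul (hmB v)
  have hu0 : ∀ v s, 0 ≤ f s * mb v s := fun v s => mul_nonneg (hf.nonneg s) (h0 v s)
  set c₀ := rexp (-1) with hc₀
  have hℓ : BM (fun s => f s * log (f s) + c₀) := (hfB.mul_log hf.nonneg).add (BM.const _)
  have hℓ0 : ∀ s, 0 ≤ f s * log (f s) + c₀ := fun s => by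
    have := neg_exp_le_mul_log (hf.nonneg s); rw [← hc₀] at this; linarith
  -- pointwise bound for the first term
  have hp1 : ∀ v s, f s * mb v s * log (f s * mb v s) ≤ mb v s * (f s * log (f s) + c₀) := by
    intro v s
    have hf0 := hf.nonneg s
    have hm0 := h0 v s
    have hm1 := h1 v s
    rcases hm0.eq_or_lt with hm00 | hm00
    · rw [← hm00]; simp
    rcases hf0.eq_or_lt with hf00 | hf00
    · rw [← hf00]; simp; positivity
    rw [Real.log_mul hf00.ne' hm00.ne']
    have hl : log (mb v s) ≤ 0 := Real.log_nonpos hm0 hm1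
    have hc : 0 < c₀ := Real.exp_pos _
    have : f s * mb v s * log (mb v s) ≤ 0 :=
      mul_nonpos_of_nonneg_of_nonpos (mul_nonneg hf0 hm0) hl
    nlinarith [mul_pos hm00 hc]
  have hint1 : ∑ v, ∫ s, f s * mb v s * log (f s * mb v s) ∂σ ≤
      β * (∫ s, f s * log (f s) ∂σ + c₀) := by
    rw [← integral_finsetSum _ fun v _ => ((huB v).mul_log (hu0 v)).integrable σ]
    have e : ∫ s, f s * log (f s) ∂σ + c₀ = ∫ s, (f s * log (f s) + c₀) ∂σ := by
      rw [integral_add ((hfB.mul_log hf.nonneg).integrable σ) ((BM.const _).integrable σ)]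
      simp
    rw [e, ← integral_const_mul]
    refine integral_mono_ae ((BM.sum _ fun v => (huB v).mul_log (hu0 v)).integrable σ)
      ((hℓ.integrable σ).const_mul _) ?_
    filter_upwards [hβ] with s hs
    calc ∑ v, f s * mb v s * log (f s * mb v s)
        ≤ ∑ v, mb v s * (f s * log (f s) + c₀) := Finset.sum_le_sum fun v _ => hp1 v s
      _ = (∑ v, mb v s) * (f s * log (f s) + c₀) := by rw [Finset.sum_mul]
      _ ≤ β * (f s * log (f s) + c₀) := mul_le_mul_of_nonneg_right hs (hℓ0 s)
  -- the second term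
  set U : V → ℝ := fun v => ∫ s, f s * mb v s ∂σ with hU
  have hU0 : ∀ v, 0 ≤ U v := fun v => integral_nonneg (hu0 v)
  have hcard : (0 : ℝ) < Fintype.card V := by exact_mod_cast Fintype.card_pos
  have hlogc : 0 ≤ log (Fintype.card V) := Real.log_nonneg (by exact_mod_cast Fintype.card_pos)
  have hsumU : ∑ v, U v ≤ β := by
    simp only [hU]
    rw [← integral_finsetSum _ fun v _ => (huB v).integrable σ]
    have : ∫ s, ∑ v, f s * mb v s ∂σ ≤ ∫ s, β * f s ∂σ := by
      refine integral_mono_ae ((BM.sum _ huB).integrable σ) ((hfB.integrable σ).const_mul _) ?_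
      filter_upwards [hβ] with s hs
      rw [← Finset.mul_sum, mul_comm]
      exact mul_le_mul_of_nonneg_right hs (hf.nonneg s)
    rw [integral_const_mul, hf1, mul_one] at this
    exact this
  have hp2 : ∀ v, - (U v * log (U v)) ≤ U v * log (Fintype.card V) + 1 / (Fintype.card V) - U v := by
    intro v
    have h := mul_log_ineq (hU0 v) (div_pos one_pos hcard)
    rw [Real.log_div one_ne_zero hcard.ne', Real.log_one, zero_sub] at h
    nlinarith
  have hsum2 : ∑ v, - (U v * log (U v)) ≤ β * log (Fintype.card V) + 1 := by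
    calc ∑ v, - (U v * log (U v)) ≤ ∑ v, (U v * log (Fintype.card V) + 1 / (Fintype.card V) - U v) :=
          Finset.sum_le_sum fun v _ => hp2 v
      _ = (∑ v, U v) * log (Fintype.card V) + 1 - ∑ v, U v := by
          rw [Finset.sum_sub_distrib, Finset.sum_add_distrib, ← Finset.sum_mul]
          simp only [Finset.sum_const, Finset.card_univ, nsmul_eq_mul]
          rw [mul_one_div_cancel hcard.ne']
      _ ≤ β * log (Fintype.card V) + 1 := by
          have := mul_le_mul_of_nonneg_right hsumU hlogc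
          have h3 : 0 ≤ ∑ v, U v := Finset.sum_nonneg fun v _ => hU0 v
          linarith
  have hsplit : ∑ v, Hent σ (fun s => f s * mb v s) =
      ∑ v, ∫ s, f s * mb v s * log (f s * mb v s) ∂σ + ∑ v, - (U v * log (U v)) := by
    rw [← Finset.sum_add_distrib]
    refine Finset.sum_congr rfl fun v _ => ?_
    simp only [Hent, hU]
    ring
  rw [hsplit]
  nlinarith

end Bad

section Replica

variable {S ι : Type*} [MeasurableSpace S] [MeasurableSpace ι] [Countable ι]
  [MeasurableSingletonClass ι]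

/-- product integrals over replicas -/
lemma lintegral_pi_prod (σ : Measure S) [IsProbabilityMeasure σ] (N : ℕ) {g : S → ℝ≥0∞}
    (hg : Measurable g) :
    ∫⁻ s : Fin N → S, ∏ j, g (s j) ∂(Measure.pi fun _ => σ) = (∫⁻ s, g s ∂σ) ^ N := by
  have hind : iIndepFun (fun (j : Fin N) (s : Fin N → S) => g (s j))
      (Measure.pi fun _ : Fin N => σ) :=
    iIndepFun_pi (X := fun _ => g) fun _ => hg.aemeasurable
  have h1 := lintegral_prod_eq_prod_lintegral_of_indepFun (μ := Measure.pi fun _ : Fin N => σ)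
    Finset.univ (fun (j : Fin N) (s : Fin N → S) => g (s j)) hind
    (fun j => hg.comp (measurable_pi_apply j))
  rw [h1]
  have h2 : ∀ j : Fin N, ∫⁻ s : Fin N → S, g (s j) ∂(Measure.pi fun _ => σ) = ∫⁻ s, g s ∂σ := by
    intro j
    have := (measurePreserving_eval (fun _ : Fin N => σ) j).lintegral_comp hg
    exact this
  simp [h2]

/-- The sum over cells of the `N`th powers of integrals is an integral over replicas. -/
lemma tsum_pow_cell (σ : Measure S) [IsProbabilityMeasure σ] {C : S → ι} (hC : Measurable C)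
    {g : S → ℝ≥0∞} (hg : Measurable g) (u : ℕ) :
    ∑' i, (∫⁻ s in C ⁻¹' {i}, g s ∂σ) ^ (u + 1) =
      ∫⁻ s : Fin (u + 1) → S, (∏ j, g (s j)) * ({s : Fin (u + 1) → S | ∀ j, C (s j) = C (s 0)}).indicator 1 s
        ∂(Measure.pi fun _ => σ) := by
  classical
  have hind : ∀ i, Measurable ((C ⁻¹' {i}).indicator g) := fun i =>
    hg.indicator (hC (measurableSet_singleton i))
  have h1 : ∀ i, (∫⁻ s in C ⁻¹' {i}, g s ∂σ) ^ (u + 1) =
      ∫⁻ s : Fin (u + 1) → S, ∏ j, (C ⁻¹' {i}).indicator g (s j) ∂(Measure.pi fun _ => σ) := by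
    intro i
    rw [lintegral_pi_prod σ (u + 1) (hind i),
      lintegral_indicator (hC (measurableSet_singleton i))]
  simp_rw [h1]
  have hmeas : ∀ i, AEMeasurable (fun s : Fin (u + 1) → S => ∏ j, (C ⁻¹' {i}).indicator g (s j))
      (Measure.pi fun _ => σ) := fun i =>
    (Finset.measurable_fun_prod _ fun j _ => (hind i).comp (measurable_pi_apply j)).aemeasurable
  rw [← lintegral_tsum hmeas]
  refine lintegral_congr fun s => ?_
  by_cases hs : ∀ j, C (s j) = C (s 0)
  · rw [tsum_eq_single (C (s 0))]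
    · have : s ∈ {s : Fin (u + 1) → S | ∀ j, C (s j) = C (s 0)} := hs
      rw [Set.indicator_of_mem this]
      simp only [Pi.one_apply, mul_one]
      refine Finset.prod_congr rfl fun j _ => ?_
      rw [Set.indicator_of_mem]
      simp [hs j]
    · intro i hi
      refine Finset.prod_eq_zero (Finset.mem_univ 0) ?_
      rw [Set.indicator_of_notMem]
      simpa using Ne.symm hi
  · have : s ∉ {s : Fin (u + 1) → S | ∀ j, C (s j) = C (s 0)} := hs
    rw [Set.indicator_of_notMem this, mul_zero]
    have h3 : ∀ i, ∏ j, (C ⁻¹' {i}).indicator g (s j) = 0 := by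
      intro i
      by_cases h0 : C (s 0) = i
      · push Not at hs
        obtain ⟨j, hj⟩ := hs
        refine Finset.prod_eq_zero (Finset.mem_univ j) ?_
        rw [Set.indicator_of_notMem]
        simpa [h0] using (by rw [← h0]; exact hj)
      · refine Finset.prod_eq_zero (Finset.mem_univ 0) ?_
        rw [Set.indicator_of_notMem]
        simpa using h0
    simp [h3]

end Replica

end Vale.Agent.P309
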