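import Vale.Agent.P309.GainA

/-!
Measurability of the cell averages and the replica bound.
-/

open MeasureTheory ProbabilityTheory Real Set Filter Topology
open scoped RealInnerProductSpace ENNReal

namespace Vale.Agent.P309

set_option linter.unusedSectionVars false

variable {Ω S ι : Type*} [MeasurableSpace Ω] [MeasurableSpace S] [MeasurableSpace ι]
  [Countable ι] [MeasurableSingletonClass ι]

/-- equality of countably valued measurable functions is a measurable condition -/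
lemma measurableSet_eq_of_countable {X : Type*} [MeasurableSpace X] {a b : X → ι}
    (ha : Measurable a) (hb : Measurable b) : MeasurableSet {x | a x = b x} := by
  have : {x | a x = b x} = ⋃ i, (a ⁻¹' {i} ∩ b ⁻¹' {i}) := by
    ext x
    simp only [mem_setOf_eq, mem_iUnion, mem_inter_iff, mem_preimage, mem_singleton_iff]
    exact ⟨fun h => ⟨b x, h, rfl⟩, fun ⟨i, h1, h2⟩ => h1.trans h2.symm⟩
  rw [this]
  exact MeasurableSet.iUnion fun i =>
    (ha (measurableSet_singleton i)).inter (hb (measurableSet_singleton i))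

lemma measurable_c_left {c : Ω → S → ι} (hc : Measurable (Function.uncurry c)) (A : Ω) :
    Measurable (c A) := hc.comp measurable_prodMk_left

lemma measurable_cave (σ : Measure S) [IsProbabilityMeasure σ] {c : Ω → S → ι}
    (hc : Measurable (Function.uncurry c)) {h : S → ℝ} (hh : BM h) :
    Measurable (fun p : Ω × ι => cave σ (c p.1) h p.2) := by
  have hT : MeasurableSet {q : (Ω × ι) × S | c q.1.1 q.2 = q.1.2} :=
    measurableSet_eq_of_countable
      (hc.comp ((measurable_fst.comp measurable_fst).prodMk measurable_snd))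
      (measurable_snd.comp measurable_fst)
  have hnum : Measurable (fun p : Ω × ι => ∫ s in (c p.1) ⁻¹' {p.2}, h s ∂σ) := by
    have h1 : StronglyMeasurable (Function.uncurry fun (p : Ω × ι) (s : S) =>
        ({q : (Ω × ι) × S | c q.1.1 q.2 = q.1.2}).indicator (fun q => h q.2) (p, s)) :=
      (Measurable.indicator (hh.meas.comp measurable_snd) hT).stronglyMeasurable
    have h2 := (h1.integral_prod_right (ν := σ)).measurable
    convert h2 using 2 with p
    rw [← integral_indicator (measurable_c_left hc p.1 (measurableSet_singleton p.2))]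
    refine integral_congr_ae (ae_of_all _ fun s => ?_)
    by_cases hs : c p.1 s = p.2
    · simp [hs, Set.indicator]
    · simp [hs, Set.indicator]
  have hden : Measurable (fun p : Ω × ι => σ.real ((c p.1) ⁻¹' {p.2})) := by
    exact (measurable_measure_prodMk_left (ν := σ) hT).ennreal_toReal
  exact hnum.div hden

lemma measurable_cave_comp (σ : Measure S) [IsProbabilityMeasure σ] {c : Ω → S → ι}
    (hc : Measurable (Function.uncurry c)) {h : S → ℝ} (hh : BM h) :
    Measurable (fun p : Ω × S => cave σ (c p.1) h (c p.1 p.2)) :=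
  (measurable_cave σ hc hh).comp (measurable_fst.prodMk hc)

lemma enn_prod_rpow {α : Type*} (t : Finset α) (a : α → ℝ≥0∞) {p : ℝ} (hp : 0 ≤ p) :
    (∏ j ∈ t, a j) ^ p = ∏ j ∈ t, (a j) ^ p := by
  classical
  induction t using Finset.induction_on with
  | empty => simp
  | insert i t hi ih =>
    rw [Finset.prod_insert hi, Finset.prod_insert hi, ENNReal.mul_rpow_of_nonneg _ _ hp, ih]

/-- One row-vector of rows: for a fixed `A`, bound by a sum over cells. -/
lemma replica_fixed (σ : Measure S) [IsProbabilityMeasure σ] {C : S → ι} (hC : Measurable C)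
    {τ : ℝ} (hτ : 0 < τ) (θ : ι → ℝ) (hθ0 : ∀ i, 0 ≤ θ i) (hθ1 : ∀ i, θ i ≤ 1)
    (hθτ : ∀ i, 0 < θ i → τ ≤ σ.real (C ⁻¹' {i}))
    {ψ : S → ℝ} (hψ : BM ψ) (hψ1 : ∀ s, 1 ≤ ψ s) (u : ℕ) :
    ENNReal.ofReal (∫ s, θ (C s) * (cave σ C ψ (C s)) ^ (u + 1) ∂σ) ≤
      ENNReal.ofReal ((τ⁻¹) ^ u) * ∑' i, (∫⁻ s in C ⁻¹' {i}, ENNReal.ofReal (ψ s) ∂σ) ^ (u + 1) := by
  obtain ⟨K, hK⟩ := hψ.bdd
  have hθm : Measurable θ := Measurable.of_discrete
  have hcψm : Measurable (cave σ C ψ) := Measurable.of_discrete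
  have hθB : BM (fun s => θ (C s)) :=
    ⟨hθm.comp hC, 1, fun s => by rw [abs_of_nonneg (hθ0 _)]; exact hθ1 _⟩
  have hcψ : BM (fun s => cave σ C ψ (C s)) := ⟨hcψm.comp hC, K, fun s => cave_abs_le hC hψ hK _⟩
  have hB := hθB.mul (hcψ.pow (u + 1))
  have hs := hasSum_cells (σ := σ) hC hB
  have hnn : ∀ i, 0 ≤ ∫ s in C ⁻¹' {i}, θ (C s) * (cave σ C ψ (C s)) ^ (u + 1) ∂σ := by
    intro i
    refine setIntegral_nonneg (hC (measurableSet_singleton i)) fun s _ => ?_
    refine mul_nonneg (hθ0 _) (pow_nonneg ?_ _)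
    exact cave_nonneg (fun s => zero_le_one.trans (hψ1 s)) _
  rw [← hs.tsum_eq, ENNReal.ofReal_tsum_of_nonneg hnn hs.summable, ← ENNReal.tsum_mul_left]
  refine ENNReal.tsum_le_tsum fun i => ?_
  have hP := hC (measurableSet_singleton i)
  rw [setIntegral_cell hC (fun j => θ j * (cave σ C ψ j) ^ (u + 1)) i]
  by_cases he : σ.real (C ⁻¹' {i}) = 0
  · rw [he]; simp
  have hpos : 0 < σ.real (C ⁻¹' {i}) := lt_of_le_of_ne measureReal_nonneg (Ne.symm he)
  set e := σ.real (C ⁻¹' {i}) with he'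
  have hI : ∫⁻ s in C ⁻¹' {i}, ENNReal.ofReal (ψ s) ∂σ =
      ENNReal.ofReal (∫ s in C ⁻¹' {i}, ψ s ∂σ) := by
    rw [ofReal_integral_eq_lintegral_ofReal (hψ.integrable σ).integrableOn
      (ae_of_all _ fun s => zero_le_one.trans (hψ1 s))]
  have hI0 : 0 ≤ ∫ s in C ⁻¹' {i}, ψ s ∂σ :=
    setIntegral_nonneg hP fun s _ => zero_le_one.trans (hψ1 s)
  rw [hI, ← ENNReal.ofReal_pow hI0, ← ENNReal.ofReal_mul (by positivity)]
  apply ENNReal.ofReal_le_ofReal
  set Y := cave σ C ψ i with hY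
  have hYeq : ∫ s in C ⁻¹' {i}, ψ s ∂σ = Y * e := by
    rw [hY, cave, ← he']; field_simp
  have hY0 : 0 ≤ Y := cave_nonneg (fun s => zero_le_one.trans (hψ1 s)) _
  rw [hYeq]
  rcases (hθ0 i).eq_or_lt with h0 | h0
  · rw [← h0]
    have : 0 ≤ τ⁻¹ ^ u * (Y * e) ^ (u + 1) := by positivity
    simpa using this
  have hτe := hθτ i h0
  have h1 : θ i * Y ^ (u + 1) * e ≤ Y ^ (u + 1) * e := by
    have : 0 ≤ Y ^ (u + 1) * e := by positivity
    nlinarith [hθ1 i]
  have h2 : Y ^ (u + 1) * e ≤ τ⁻¹ ^ u * (Y * e) ^ (u + 1) := by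
    rw [mul_pow, pow_succ e u]
    have h3 : (1 : ℝ) ≤ τ⁻¹ ^ u * e ^ u := by
      rw [← mul_pow]
      apply one_le_pow₀
      rw [inv_mul_eq_div, one_le_div hτ]
      exact hτe
    have h4 : 0 ≤ Y ^ (u + 1) * e := by positivity
    nlinarith
  exact h1.trans h2

/-- The replica bound. -/
theorem replica_bound (γ : Measure Ω) [IsProbabilityMeasure γ] (σ : Measure S)
    [IsProbabilityMeasure σ] (c : Ω → S → ι) (hc : Measurable (Function.uncurry c))
    {τ : ℝ} (hτ : 0 < τ) (θ : Ω → ι → ℝ) (hθm : Measurable (Function.uncurry θ))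
    (hθ0 : ∀ A i, 0 ≤ θ A i) (hθ1 : ∀ A i, θ A i ≤ 1)
    (hθτ : ∀ A i, 0 < θ A i → τ ≤ σ.real {s | c A s = i})
    {ψ : S → ℝ} (hψ : BM ψ) (hψ1 : ∀ s, 1 ≤ ψ s) (hψ3 : ∫ s, ψ s ^ 3 ∂σ ≤ 2)
    (u : ℕ) {Mm : ℝ} (hMm : 0 ≤ Mm)
    (hW : (∫⁻ s : Fin (u + 1) → S, (collide γ c s) ^ (3 / 2 : ℝ) ∂(Measure.pi fun _ => σ)) ^
      (2 / 3 : ℝ) ≤ ENNReal.ofReal (Mm * τ ^ u)) :
    ∫ A, ∫ s, θ A (c A s) * (cave σ (c A) ψ (c A s)) ^ (u + 1) ∂σ ∂γ ≤
      (2 : ℝ) ^ (((u : ℝ) + 1) / 3) * Mm := by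
  obtain ⟨K, hK⟩ := hψ.bdd
  have hK0 : 0 ≤ K := by
    have hS : Nonempty S := by
      by_contra hS
      have : IsEmpty S := not_nonempty_iff.1 hS
      have h1 : σ univ = 1 := measure_univ
      simp [Measure.eq_zero_of_isEmpty σ] at h1
    obtain ⟨s⟩ := hS
    exact (abs_nonneg _).trans (hK s)
  set g : S → ℝ≥0∞ := fun s => ENNReal.ofReal (ψ s) with hg
  have hgm : Measurable g := hψ.meas.ennreal_ofReal
  -- the integrand in `(A, s)`
  set R : Ω → S → ℝ := fun A s => θ A (c A s) * (cave σ (c A) ψ (c A s)) ^ (u + 1) with hR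
  have hRm : Measurable (Function.uncurry R) := by
    have h1 : Measurable (fun p : Ω × S => θ p.1 (c p.1 p.2)) :=
      hθm.comp (measurable_fst.prodMk hc)
    exact h1.mul ((measurable_cave_comp σ hc hψ).pow_const (u + 1))
  have hR0 : ∀ A s, 0 ≤ R A s := fun A s =>
    mul_nonneg (hθ0 _ _) (pow_nonneg (cave_nonneg (fun s => zero_le_one.trans (hψ1 s)) _) _)
  have hRb : ∀ A s, R A s ≤ K ^ (u + 1) := by
    intro A s
    have h1 := cave_abs_le (σ := σ) (measurable_c_left hc A) hψ hK (c A s)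
    have h2 : 0 ≤ cave σ (c A) ψ (c A s) := cave_nonneg (fun s => zero_le_one.trans (hψ1 s)) _
    rw [abs_of_nonneg h2] at h1
    have h3 : (cave σ (c A) ψ (c A s)) ^ (u + 1) ≤ K ^ (u + 1) := pow_le_pow_left₀ h2 h1 (u + 1)
    have h4 := hθ1 A (c A s)
    have h5 : 0 ≤ (cave σ (c A) ψ (c A s)) ^ (u + 1) := pow_nonneg h2 _
    simp only [hR]
    nlinarith [hθ0 A (c A s)]
  have hRB : BM (Function.uncurry R) :=
    ⟨hRm, K ^ (u + 1), fun p => by
      show |R p.1 p.2| ≤ K ^ (u + 1)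
      rw [abs_of_nonneg (hR0 p.1 p.2)]; exact hRb p.1 p.2⟩
  -- the integral over `s` as a function of `A`
  set I : Ω → ℝ := fun A => ∫ s, R A s ∂σ with hI
  have hIm : Measurable I :=
    (hRm.stronglyMeasurable.integral_prod_right (ν := σ)).measurable
  have hI0 : ∀ A, 0 ≤ I A := fun A => integral_nonneg (hR0 A)
  have hIb : ∀ A, I A ≤ K ^ (u + 1) := by
    intro A
    have hint : Integrable (R A) σ := (hRB.comp (measurable_prodMk_left (x := A))).integrable σ
    calc I A ≤ ∫ _s : S, K ^ (u + 1) ∂σ := integral_mono hint (integrable_const _) (hRb A)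
      _ = K ^ (u + 1) := by simp
  have hIB : BM I := ⟨hIm, K ^ (u + 1), fun A => by rw [abs_of_nonneg (hI0 A)]; exact hIb A⟩
  -- pointwise in `A`
  have hfix : ∀ A, ENNReal.ofReal (I A) ≤ ENNReal.ofReal ((τ⁻¹) ^ u) *
      ∫⁻ s : Fin (u + 1) → S, (∏ j, g (s j)) * ({s : Fin (u + 1) → S | ∀ j, c A (s j) = c A (s 0)}).indicator 1 s
        ∂(Measure.pi fun _ => σ) := by
    intro A
    have h1 := replica_fixed σ (measurable_c_left hc A) hτ (θ A) (hθ0 A) (hθ1 A)
      (fun i hi => hθτ A i hi) hψ hψ1 u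
    rw [tsum_pow_cell σ (measurable_c_left hc A) hgm u] at h1
    exact h1
  -- Tonelli
  have hTS : MeasurableSet {q : Ω × (Fin (u + 1) → S) | ∀ j, c q.1 (q.2 j) = c q.1 (q.2 0)} := by
    have : {q : Ω × (Fin (u + 1) → S) | ∀ j, c q.1 (q.2 j) = c q.1 (q.2 0)} =
        ⋂ j, {q : Ω × (Fin (u + 1) → S) | c q.1 (q.2 j) = c q.1 (q.2 0)} := by
      ext q; simp
    rw [this]
    refine MeasurableSet.iInter fun j => measurableSet_eq_of_countable ?_ ?_
    · exact hc.comp (measurable_fst.prodMk ((measurable_pi_apply j).comp measurable_snd))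
    · exact hc.comp (measurable_fst.prodMk ((measurable_pi_apply 0).comp measurable_snd))
  have hPim : Measurable (fun s : Fin (u + 1) → S => ∏ j, g (s j)) :=
    Finset.measurable_fun_prod _ fun j _ => hgm.comp (measurable_pi_apply j)
  have hton : ∫⁻ A, ∫⁻ s : Fin (u + 1) → S, (∏ j, g (s j)) *
      ({s : Fin (u + 1) → S | ∀ j, c A (s j) = c A (s 0)}).indicator 1 s ∂(Measure.pi fun _ => σ) ∂γ =
      ∫⁻ s : Fin (u + 1) → S, (∏ j, g (s j)) * collide γ c s ∂(Measure.pi fun _ => σ) := by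
    have hjoint : Measurable (fun q : Ω × (Fin (u + 1) → S) => (∏ j, g (q.2 j)) *
        ({q : Ω × (Fin (u + 1) → S) | ∀ j, c q.1 (q.2 j) = c q.1 (q.2 0)}).indicator 1 q) :=
      (hPim.comp measurable_snd).mul (measurable_one.indicator hTS)
    have e : ∀ A (s : Fin (u + 1) → S), (∏ j, g (s j)) *
        ({s : Fin (u + 1) → S | ∀ j, c A (s j) = c A (s 0)}).indicator 1 s =
        (∏ j, g (s j)) * ({q : Ω × (Fin (u + 1) → S) | ∀ j, c q.1 (q.2 j) = c q.1 (q.2 0)}).indicator 1 (A, s) := by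
      intro A s
      by_cases h : ∀ j, c A (s j) = c A (s 0)
      · simp [Set.indicator, h]
      · simp [Set.indicator, h]
    simp_rw [e]
    rw [lintegral_lintegral_swap hjoint.aemeasurable]
    refine lintegral_congr fun s => ?_
    have hme : Measurable (fun A : Ω => ({q : Ω × (Fin (u + 1) → S) | ∀ j, c q.1 (q.2 j) = c q.1 (q.2 0)}).indicator
        (1 : Ω × (Fin (u + 1) → S) → ℝ≥0∞) (A, s)) :=
      (measurable_one.indicator hTS).comp measurable_prodMk_right
    rw [lintegral_const_mul _ hme]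
    congr 1
    have : (fun A => ({q : Ω × (Fin (u + 1) → S) | ∀ j, c q.1 (q.2 j) = c q.1 (q.2 0)}).indicator
        (1 : Ω × (Fin (u + 1) → S) → ℝ≥0∞) (A, s)) =
        ({A | ∀ j, c A (s j) = c A (s 0)}).indicator 1 := by
      ext A
      by_cases h : ∀ j, c A (s j) = c A (s 0)
      · simp [Set.indicator, h]
      · simp [Set.indicator, h]
    rw [this, lintegral_indicator_one]
    · rfl
    · exact measurable_prodMk_right hTS
  -- Hölder
  have hcolm : Measurable (fun s : Fin (u + 1) → S => collide γ c s) := by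
    have := measurable_measure_prodMk_right (μ := γ) hTS
    exact this
  have hhold : ∫⁻ s : Fin (u + 1) → S, (∏ j, g (s j)) * collide γ c s ∂(Measure.pi fun _ => σ) ≤
      ENNReal.ofReal ((2 : ℝ) ^ (((u : ℝ) + 1) / 3)) * ENNReal.ofReal (Mm * τ ^ u) := by
    have h3 : ((3 : ℝ)).HolderConjugate (3 / 2) := by
      refine ⟨by norm_num, by norm_num, by norm_num⟩
    have h := ENNReal.lintegral_mul_le_Lp_mul_Lq (Measure.pi fun _ : Fin (u + 1) => σ) h3
      hPim.aemeasurable hcolm.aemeasurable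
    simp only [Pi.mul_apply] at h
    refine h.trans ?_
    have e1 : (1 / (3 / 2) : ℝ) = 2 / 3 := by norm_num
    rw [e1]
    refine mul_le_mul' ?_ hW
    have hg3 : ∫⁻ s, g s ^ (3 : ℝ) ∂σ ≤ ENNReal.ofReal 2 := by
      have e2 : ∀ s, g s ^ (3 : ℝ) = ENNReal.ofReal (ψ s ^ 3) := by
        intro s
        rw [hg]
        simp only
        rw [ENNReal.ofReal_rpow_of_nonneg (zero_le_one.trans (hψ1 s)) (by norm_num)]
        congr 1
        norm_cast
      simp_rw [e2]
      rw [← ofReal_integral_eq_lintegral_ofReal ((hψ.pow 3).integrable σ)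
        (ae_of_all _ fun s => pow_nonneg (zero_le_one.trans (hψ1 s)) 3)]
      exact ENNReal.ofReal_le_ofReal hψ3
    have e3 : ∀ s : Fin (u + 1) → S, (∏ j, g (s j)) ^ (3 : ℝ) = ∏ j, (g (s j)) ^ (3 : ℝ) := fun s =>
      enn_prod_rpow _ _ (by norm_num)
    simp_rw [e3]
    have hg3m : Measurable (fun s => g s ^ (3 : ℝ)) := hgm.pow_const _
    rw [lintegral_pi_prod σ (u + 1) hg3m]
    calc ((∫⁻ s, g s ^ (3 : ℝ) ∂σ) ^ (u + 1)) ^ (1 / 3 : ℝ)
        ≤ (ENNReal.ofReal 2 ^ (u + 1)) ^ (1 / 3 : ℝ) := by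
          gcongr
      _ = ENNReal.ofReal ((2 : ℝ) ^ (((u : ℝ) + 1) / 3)) := by
          rw [← ENNReal.ofReal_pow (by norm_num),
            ENNReal.ofReal_rpow_of_nonneg (by positivity) (by norm_num)]
          congr 1
          rw [← Real.rpow_natCast, ← Real.rpow_mul (by norm_num)]
          congr 1
          push_cast
          ring
  -- conclusion
  have hfinal : ENNReal.ofReal (∫ A, I A ∂γ) ≤
      ENNReal.ofReal ((2 : ℝ) ^ (((u : ℝ) + 1) / 3) * Mm) := by
    rw [ofReal_integral_eq_lintegral_ofReal (hIB.integrable γ) (ae_of_all _ hI0)]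
    calc ∫⁻ A, ENNReal.ofReal (I A) ∂γ
        ≤ ∫⁻ A, ENNReal.ofReal ((τ⁻¹) ^ u) *
          ∫⁻ s : Fin (u + 1) → S, (∏ j, g (s j)) *
            ({s : Fin (u + 1) → S | ∀ j, c A (s j) = c A (s 0)}).indicator 1 s
              ∂(Measure.pi fun _ => σ) ∂γ := lintegral_mono hfix
      _ ≤ ENNReal.ofReal ((τ⁻¹) ^ u) * ∫⁻ A, ∫⁻ s : Fin (u + 1) → S, (∏ j, g (s j)) *
            ({s : Fin (u + 1) → S | ∀ j, c A (s j) = c A (s 0)}).indicator 1 s
              ∂(Measure.pi fun _ => σ) ∂γ := by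
          exact le_of_eq (lintegral_const_mul' _ _ ENNReal.ofReal_ne_top)
      _ = ENNReal.ofReal ((τ⁻¹) ^ u) *
            ∫⁻ s : Fin (u + 1) → S, (∏ j, g (s j)) * collide γ c s ∂(Measure.pi fun _ => σ) := by
          rw [hton]
      _ ≤ ENNReal.ofReal ((τ⁻¹) ^ u) * (ENNReal.ofReal ((2 : ℝ) ^ (((u : ℝ) + 1) / 3)) *
            ENNReal.ofReal (Mm * τ ^ u)) := by gcongr
      _ = ENNReal.ofReal ((2 : ℝ) ^ (((u : ℝ) + 1) / 3) * Mm) := by
          rw [← ENNReal.ofReal_mul (by positivity), ← ENNReal.ofReal_mul (by positivity)]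
          congr 1
          have : τ⁻¹ ^ u * τ ^ u = 1 := by
            rw [← mul_pow, inv_mul_cancel₀ hτ.ne', one_pow]
          calc τ⁻¹ ^ u * ((2 : ℝ) ^ (((u : ℝ) + 1) / 3) * (Mm * τ ^ u))
              = (τ⁻¹ ^ u * τ ^ u) * ((2 : ℝ) ^ (((u : ℝ) + 1) / 3) * Mm) := by ring
            _ = _ := by rw [this, one_mul]
  exact (ENNReal.ofReal_le_ofReal_iff (by positivity)).1 hfinal

end Vale.Agent.P309
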