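import Vale.Agent.P309.GainB

/-!
The good part of the gain inequality.
-/

open MeasureTheory ProbabilityTheory Real Set Filter Topology
open scoped RealInnerProductSpace ENNReal

namespace Vale.Agent.P309

set_option linter.unusedSectionVars false

variable {Ω S ι V : Type*} [MeasurableSpace Ω] [MeasurableSpace S] [MeasurableSpace ι]
  [Countable ι] [MeasurableSingletonClass ι] [Fintype V]

lemma BM.integral_right {h : Ω × S → ℝ} (hh : BM h) (σ : Measure S) [IsProbabilityMeasure σ] :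
    BM (fun A => ∫ s, h (A, s) ∂σ) := by
  obtain ⟨K, hK⟩ := hh.bdd
  have hm : Measurable (fun A => ∫ s, h (A, s) ∂σ) :=
    ((show StronglyMeasurable (Function.uncurry fun A s => h (A, s)) from
      hh.meas.stronglyMeasurable).integral_prod_right (ν := σ)).measurable
  refine ⟨hm, K, fun A => ?_⟩
  have h1 : |∫ s, h (A, s) ∂σ| ≤ ∫ s, |h (A, s)| ∂σ := abs_integral_le_integral_abs
  have hi : Integrable (fun s => h (A, s)) σ := (hh.comp measurable_prodMk_left).integrable σ
  have h2 : ∫ s, |h (A, s)| ∂σ ≤ ∫ _s : S, K ∂σ :=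
    integral_mono hi.abs (integrable_const _) fun s => hK _
  simp at h2
  linarith

lemma integral_prod_le_of_fiber (γ : Measure Ω) [IsProbabilityMeasure γ] (σ : Measure S)
    [IsProbabilityMeasure σ] {a b : Ω × S → ℝ} (ha : BM a) (hb : BM b)
    (h : ∀ A, ∫ s, a (A, s) ∂σ ≤ ∫ s, b (A, s) ∂σ) :
    ∫ p, a p ∂(γ.prod σ) ≤ ∫ p, b p ∂(γ.prod σ) := by
  rw [integral_prod _ (ha.integrable _), integral_prod _ (hb.integrable _)]
  exact integral_mono ((ha.integral_right σ).integrable γ) ((hb.integral_right σ).integrable γ) h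

/-- Tower property: the integral of the cell average. -/
lemma integral_cave_comp (σ : Measure S) [IsProbabilityMeasure σ] {C : S → ι} (hC : Measurable C)
    {f : S → ℝ} (hf : BM f) : ∫ s, cave σ C f (C s) ∂σ = ∫ s, f s ∂σ := by
  obtain ⟨K, hK⟩ := hf.bdd
  have hcfm : Measurable (cave σ C f) := Measurable.of_discrete
  have hcf : BM (fun s => cave σ C f (C s)) := ⟨hcfm.comp hC, K, fun s => cave_abs_le hC hf hK _⟩
  have h1 := hasSum_cells (σ := σ) hC hcf
  have h2 := hasSum_cells (σ := σ) hC hf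
  refine h1.unique ?_
  convert h2 using 2 with i
  rw [setIntegral_cell hC (cave σ C f) i]
  by_cases he : σ.real (C ⁻¹' {i}) = 0
  · have hnull : σ (C ⁻¹' {i}) = 0 := by rwa [measureReal_eq_zero_iff] at he
    rw [he, Measure.restrict_eq_zero.2 hnull]
    simp
  · unfold cave
    field_simp

/-- The logarithm of a cell average of a function at least `1` is bounded. -/
lemma BM_log_cave (σ : Measure S) [IsProbabilityMeasure σ] {c : Ω → S → ι}
    (hc : Measurable (Function.uncurry c)) {ψ : S → ℝ} (hψ : BM ψ) (hψ1 : ∀ s, 1 ≤ ψ s) :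
    BM (fun p : Ω × S => log (cave σ (c p.1) ψ (c p.1 p.2))) := by
  obtain ⟨K, hK⟩ := hψ.bdd
  refine ⟨(measurable_cave_comp σ hc hψ).log, K, fun p => ?_⟩
  have h1 := cave_abs_le (σ := σ) (measurable_c_left hc p.1) hψ hK (c p.1 p.2)
  have hK0 : 0 ≤ K := (abs_nonneg _).trans h1
  by_cases he : σ.real ((c p.1) ⁻¹' {c p.1 p.2}) = 0
  · rw [cave_eq_zero he]
    simpa using hK0
  · have hpos : 0 < σ.real ((c p.1) ⁻¹' {c p.1 p.2}) :=
      lt_of_le_of_ne measureReal_nonneg (Ne.symm he)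
    have h2 := one_le_cave (measurable_c_left hc p.1) hψ hψ1 hpos
    have hl : 0 ≤ log (cave σ (c p.1) ψ (c p.1 p.2)) := Real.log_nonneg h2
    rw [abs_of_nonneg hl]
    have h3 := Real.log_le_sub_one_of_pos (lt_of_lt_of_le one_pos h2)
    have h4 := (le_abs_self _).trans h1
    linarith

/-- The pointwise Jensen step. -/
lemma jensen_step {x y C : ℝ} (N : ℕ) (hN : N ≠ 0) (hx : 0 ≤ x) (hy : 0 ≤ y) (hC : 0 < C)
    (h0 : y = 0 → x = 0) :
    (N : ℝ) * (x * log y) ≤ y ^ N / C + x * (log C - 1) + x * log x := by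
  rcases hy.eq_or_lt with hy0 | hy0
  · have hx0 := h0 hy0.symm
    rw [hx0, ← hy0]
    simp [hN]
  · have ha : 0 < y ^ N / C := div_pos (pow_pos hy0 N) hC
    have h := mul_log_ineq hx ha
    rw [Real.log_div (pow_pos hy0 N).ne' hC.ne', Real.log_pow] at h
    nlinarith

/-- The good part of the gain inequality. -/
theorem good_part [Nonempty V] (γ : Measure Ω) [IsProbabilityMeasure γ] (σ : Measure S)
    [IsProbabilityMeasure σ] (c : Ω → S → ι) (hc : Measurable (Function.uncurry c))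
    (θ : V → Ω → ι → ℝ) (hθm : ∀ v, Measurable (Function.uncurry (θ v)))
    (hθ0 : ∀ v A i, 0 ≤ θ v A i) (hθS : ∀ A i, ∑ v, θ v A i ≤ 1)
    {τ : ℝ} (hτ : 0 < τ) (hθτ : ∀ v A i, 0 < θ v A i → τ ≤ σ.real {s | c A s = i})
    {f : S → ℝ} (hf : BddNN f) (hf1 : ∫ s, f s ∂σ = 1)
    (u : ℕ) {Mm : ℝ} (hMm : 1 ≤ Mm)
    (hW : (∫⁻ s : Fin (u + 1) → S, (collide γ c s) ^ (3 / 2 : ℝ) ∂(Measure.pi fun _ => σ)) ^
      (2 / 3 : ℝ) ≤ ENNReal.ofReal (Mm * τ ^ u)) :
    ∑ v, Hent σ (fun s => f s * ∫ A, θ v A (c A s) ∂γ) ≤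
      3 * ((∫ p, (∑ v, θ v p.1 (c p.1 p.2)) * (f p.2 * log (f p.2)) ∂(γ.prod σ)) + rexp (-1) +
        (1 + log ((Fintype.card V : ℝ) * (2 : ℝ) ^ (((u : ℝ) + 1) / 3) * Mm)) / ((u : ℝ) + 1)) := by
  classical
  have hfB := BM.of_bddNN hf
  obtain ⟨F, hF⟩ := hfB.bdd
  have hF0 : ∀ s, f s ≤ F := fun s => (le_abs_self _).trans (hF s)
  have hθ1 : ∀ v A i, θ v A i ≤ 1 := fun v A i =>
    (Finset.single_le_sum (f := fun v => θ v A i) (fun w _ => hθ0 w A i) (Finset.mem_univ v)).trans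
      (hθS A i)
  -- the function `θ` on the product
  have hθp : ∀ v, BM (fun p : Ω × S => θ v p.1 (c p.1 p.2)) := fun v =>
    ⟨(hθm v).comp (measurable_fst.prodMk hc), 1, fun p => by
      rw [abs_of_nonneg (hθ0 _ _ _)]; exact hθ1 _ _ _⟩
  -- the masses
  set mg : V → S → ℝ := fun v s => ∫ A, θ v A (c A s) ∂γ with hmg
  have hmgm : ∀ v, Measurable (mg v) := by
    intro v
    have h1 : Measurable (fun q : S × Ω => θ v q.2 (c q.2 q.1)) :=
      (hθp v).meas.comp (measurable_snd.prodMk measurable_fst)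
    exact (h1.stronglyMeasurable.integral_prod_right (ν := γ)).measurable
  have hmg0 : ∀ v s, 0 ≤ mg v s := fun v s => integral_nonneg fun A => hθ0 _ _ _
  have hθAint : ∀ v s, Integrable (fun A => θ v A (c A s)) γ := fun v s =>
    ((hθp v).comp (measurable_id.prodMk measurable_const)).integrable γ
  have hmg1 : ∀ v s, mg v s ≤ 1 := by
    intro v s
    calc mg v s ≤ ∫ _A : Ω, (1 : ℝ) ∂γ :=
          integral_mono (hθAint v s) (integrable_const _) fun A => hθ1 _ _ _
      _ = 1 := by simp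
  set ug : V → S → ℝ := fun v s => f s * mg v s with hug
  have hugm : ∀ v, Measurable (ug v) := fun v => hf.meas.mul (hmgm v)
  have hug0 : ∀ v s, 0 ≤ ug v s := fun v s => mul_nonneg (hf.nonneg s) (hmg0 v s)
  have hugN : ∀ v, BddNN (ug v) := fun v =>
    ⟨hugm v, hug0 v, F, fun s => by
      have := hF0 s
      have h2 := hmg1 v s
      have h3 := hf.nonneg s
      have h4 := hmg0 v s
      simp only [hug]
      nlinarith⟩
  have hugB : ∀ v, BM (ug v) := fun v => BM.of_bddNN (hugN v)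
  set pm : V → ℝ := fun v => ∫ s, ug v s ∂σ with hpm
  have hpm0 : ∀ v, 0 ≤ pm v := fun v => integral_nonneg (hug0 v)
  set gg : V → S → ℝ := fun v s => ug v s / pm v with hgg
  have hggB : ∀ v, BM (gg v) := fun v => by
    have := (hugB v).mul (BM.const (pm v)⁻¹)
    simpa [hgg, div_eq_mul_inv] using this
  have hgg0 : ∀ v s, 0 ≤ gg v s := fun v s => div_nonneg (hug0 v s) (hpm0 v)
  set ψ : V → S → ℝ := fun v s => (gg v s + 1) ^ (1 / 3 : ℝ) with hψdef
  have hψ1 : ∀ v s, 1 ≤ ψ v s := fun v s =>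
    Real.one_le_rpow (by linarith [hgg0 v s]) (by norm_num)
  have hψB : ∀ v, BM (ψ v) := by
    intro v
    obtain ⟨K, hK⟩ := (hggB v).bdd
    refine ⟨((hggB v).meas.add measurable_const).pow_const _, K + 1, fun s => ?_⟩
    have h1 : 1 ≤ gg v s + 1 := by linarith [hgg0 v s]
    rw [abs_of_nonneg (zero_le_one.trans (hψ1 v s))]
    have h2 : ψ v s ≤ (gg v s + 1) ^ (1 : ℝ) :=
      Real.rpow_le_rpow_of_exponent_le h1 (by norm_num)
    rw [Real.rpow_one] at h2
    have h3 := (le_abs_self _).trans (hK s)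
    linarith
  have hψcube : ∀ v s, ψ v s ^ 3 = gg v s + 1 := by
    intro v s
    have h1 : 0 ≤ gg v s + 1 := by linarith [hgg0 v s]
    simp only [hψdef]
    rw [← Real.rpow_natCast, ← Real.rpow_mul h1]
    norm_num
  have hψ3 : ∀ v, ∫ s, ψ v s ^ 3 ∂σ ≤ 2 := by
    intro v
    simp_rw [hψcube]
    rw [integral_add ((hggB v).integrable σ) (integrable_const _)]
    have hone : ∫ _s : S, (1 : ℝ) ∂σ = 1 := by simp
    rw [hone]
    have h1 : ∫ s, gg v s ∂σ ≤ 1 := by
      simp only [hgg]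
      rw [integral_div]
      exact div_self_le_one _
    linarith
  have hlogψ : ∀ v s, log (ψ v s) = (1 / 3) * log (gg v s + 1) := by
    intro v s
    have h1 : 0 ≤ gg v s + 1 := by linarith [hgg0 v s]
    simp only [hψdef]
    rw [Real.log_rpow (by linarith [hgg0 v s])]
  have hlogψ0 : ∀ v s, 0 ≤ log (ψ v s) := fun v s => Real.log_nonneg (hψ1 v s)
  have hlogψB : ∀ v, BM (fun s => log (ψ v s)) := fun v => (hψB v).log_of_one_le (hψ1 v)
  -- step 2
  have hstep2 : ∀ v, Hent σ (ug v) ≤ 3 * ∫ s, ug v s * log (ψ v s) ∂σ := by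
    intro v
    have hlm : Integrable (fun s => ug v s * log (ug v s)) σ :=
      ((hugB v).mul_log (hug0 v)).integrable σ
    rcases (hpm0 v).eq_or_lt with h0 | h0
    · have hz : ug v =ᵐ[σ] 0 :=
        (integral_eq_zero_iff_of_nonneg (hug0 v) ((hugB v).integrable σ)).1 h0.symm
      have h1 : Hent σ (ug v) = Hent σ (fun _ => (0 : ℝ)) := Hent_congr_ae hz
      have h2 : Hent σ (fun _ : S => (0 : ℝ)) = 0 := by simp [Hent]
      rw [h1, h2]
      have : 0 ≤ ∫ s, ug v s * log (ψ v s) ∂σ :=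
        integral_nonneg fun s => mul_nonneg (hug0 v s) (hlogψ0 v s)
      linarith
    · have e1 : Hent σ (ug v) = ∫ s, (ug v s * log (ug v s) - ug v s * log (pm v)) ∂σ := by
        rw [integral_sub hlm (((hugB v).integrable σ).mul_const _), integral_mul_const]
        rfl
      have e2 : 3 * ∫ s, ug v s * log (ψ v s) ∂σ = ∫ s, ug v s * log (gg v s + 1) ∂σ := by
        rw [← integral_const_mul]
        refine integral_congr_ae (ae_of_all _ fun s => ?_)
        simp only
        rw [hlogψ]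
        ring
      rw [e1, e2]
      refine integral_mono (hlm.sub (((hugB v).integrable σ).mul_const _)) ?_ ?_
      · have := (hugB v).mul (((hggB v).add (BM.const 1)).log_of_one_le
          (fun s => by linarith [hgg0 v s]))
        exact this.integrable σ
      · intro s
        simp only
        rcases (hug0 v s).eq_or_lt with h1 | h1
        · rw [← h1]; simp
        · rw [← mul_sub, ← Real.log_div h1.ne' h0.ne']
          refine mul_le_mul_of_nonneg_left ?_ (hug0 v s)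
          exact Real.log_le_log (div_pos h1 h0) (by simp only [hgg]; linarith)
  -- abbreviations on the product
  set fb : Ω × S → ℝ := fun p => cave σ (c p.1) f (c p.1 p.2) with hfb
  set pb : V → Ω × S → ℝ := fun v p => cave σ (c p.1) (ψ v) (c p.1 p.2) with hpb
  have hfbB : BM fb := ⟨measurable_cave_comp σ hc hfB, F, fun p =>
    cave_abs_le (measurable_c_left hc p.1) hfB hF _⟩
  have hfb0 : ∀ p, 0 ≤ fb p := fun p => cave_nonneg hf.nonneg _
  have hpbB : ∀ v, BM (pb v) := fun v => by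
    obtain ⟨K, hK⟩ := (hψB v).bdd
    exact ⟨measurable_cave_comp σ hc (hψB v), K, fun p =>
      cave_abs_le (measurable_c_left hc p.1) (hψB v) hK _⟩
  have hpb0 : ∀ v p, 0 ≤ pb v p := fun v p =>
    cave_nonneg (fun s => zero_le_one.trans (hψ1 v s)) _
  have hlogpb : ∀ v, BM (fun p => log (pb v p)) := fun v => BM_log_cave σ hc (hψB v) (hψ1 v)
  set P := γ.prod σ with hP
  -- step 3: Fubini
  have hstep3 : ∀ v, ∫ s, ug v s * log (ψ v s) ∂σ =
      ∫ p, θ v p.1 (c p.1 p.2) * (f p.2 * log (ψ v p.2)) ∂P := by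
    intro v
    have hB : BM (fun p : Ω × S => θ v p.1 (c p.1 p.2) * (f p.2 * log (ψ v p.2))) :=
      (hθp v).mul ((hfB.comp measurable_snd).mul ((hlogψB v).comp measurable_snd))
    rw [hP, integral_prod_symm _ (hB.integrable _)]
    refine integral_congr_ae (ae_of_all _ fun s => ?_)
    simp only [hug, hmg]
    rw [integral_mul_const]
    ring
  -- step 4: Gibbs
  have hstep4 : ∀ v, ∫ p, θ v p.1 (c p.1 p.2) * (f p.2 * log (ψ v p.2)) ∂P ≤
      ∫ p, θ v p.1 (c p.1 p.2) * (f p.2 * log (f p.2)) ∂P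
        - ∫ p, θ v p.1 (c p.1 p.2) * (fb p * log (fb p)) ∂P
        + ∫ p, θ v p.1 (c p.1 p.2) * (fb p * log (pb v p)) ∂P := by
    intro v
    have hB1 : BM (fun p : Ω × S => θ v p.1 (c p.1 p.2) * (f p.2 * log (ψ v p.2))) :=
      (hθp v).mul ((hfB.comp measurable_snd).mul ((hlogψB v).comp measurable_snd))
    have hB2 : BM (fun p : Ω × S => θ v p.1 (c p.1 p.2) * (f p.2 * log (f p.2))) :=
      (hθp v).mul ((hfB.mul_log hf.nonneg).comp measurable_snd)
    have hB3 : BM (fun p : Ω × S => θ v p.1 (c p.1 p.2) * (fb p * log (fb p))) :=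
      (hθp v).mul (hfbB.mul_log hfb0)
    have hB4 : BM (fun p : Ω × S => θ v p.1 (c p.1 p.2) * (fb p * log (pb v p))) :=
      (hθp v).mul (hfbB.mul (hlogpb v))
    rw [← integral_sub (hB2.integrable _) (hB3.integrable _),
      ← integral_add ((hB2.sub hB3).integrable _) (hB4.integrable _)]
    refine integral_prod_le_of_fiber γ σ hB1 ((hB2.sub hB3).add hB4) fun A => ?_
    have hAm : ∀ {h : Ω × S → ℝ}, BM h → Integrable (fun s => h (A, s)) σ := fun h =>
      (h.comp measurable_prodMk_left).integrable σ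
    rw [integral_add (hAm (hB2.sub hB3)) (hAm hB4), integral_sub (hAm hB2) (hAm hB3)]
    exact cell_gibbs (measurable_c_left hc A) (θ v A) (hθ0 v A) (hθ1 v A) hf (hψB v) (hψ1 v)
  -- sums over `v`
  set G : Ω × S → ℝ := fun p => ∑ v, θ v p.1 (c p.1 p.2) with hG
  have hGB : BM G := BM.sum _ hθp
  have hG0 : ∀ p, 0 ≤ G p := fun p => Finset.sum_nonneg fun v _ => hθ0 _ _ _
  have hG1 : ∀ p, G p ≤ 1 := fun p => hθS _ _
  set CC : ℝ := (Fintype.card V : ℝ) * (2 : ℝ) ^ (((u : ℝ) + 1) / 3) * Mm with hCC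
  have hcard : (1 : ℝ) ≤ Fintype.card V := by exact_mod_cast Fintype.card_pos
  have h2p : (1 : ℝ) ≤ (2 : ℝ) ^ (((u : ℝ) + 1) / 3) :=
    Real.one_le_rpow (by norm_num) (by positivity)
  have hCC1 : 1 ≤ CC := by
    have h1 : 1 ≤ (Fintype.card V : ℝ) * (2 : ℝ) ^ (((u : ℝ) + 1) / 3) :=
      one_le_mul_of_one_le_of_one_le hcard h2p
    exact one_le_mul_of_one_le_of_one_le h1 hMm
  have hCCpos : 0 < CC := by linarith
  have hlogCC : 0 ≤ log CC := Real.log_nonneg hCC1
  -- step 5: Jensen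
  have hN0 : ((u + 1 : ℕ) : ℝ) ≠ 0 := by positivity
  have hstep5 : ∀ v, ((u + 1 : ℕ) : ℝ) * ∫ p, θ v p.1 (c p.1 p.2) * (fb p * log (pb v p)) ∂P ≤
      (∫ p, θ v p.1 (c p.1 p.2) * (pb v p) ^ (u + 1) ∂P) / CC +
      (∫ p, θ v p.1 (c p.1 p.2) * fb p ∂P) * (log CC - 1) +
      ∫ p, θ v p.1 (c p.1 p.2) * (fb p * log (fb p)) ∂P := by
    intro v
    have hB4 : BM (fun p : Ω × S => θ v p.1 (c p.1 p.2) * (fb p * log (pb v p))) :=
      (hθp v).mul (hfbB.mul (hlogpb v))
    have hB5 : BM (fun p : Ω × S => θ v p.1 (c p.1 p.2) * (pb v p) ^ (u + 1)) :=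
      (hθp v).mul ((hpbB v).pow _)
    have hB6 : BM (fun p : Ω × S => θ v p.1 (c p.1 p.2) * fb p) := (hθp v).mul hfbB
    have hB7 : BM (fun p : Ω × S => θ v p.1 (c p.1 p.2) * (fb p * log (fb p))) :=
      (hθp v).mul (hfbB.mul_log hfb0)
    rw [← integral_const_mul, ← integral_div, ← integral_mul_const,
      ← integral_add ((hB5.mul (BM.const CC⁻¹)).integrable P |>.congr (ae_of_all _ fun p => by
        simp [div_eq_mul_inv])) ((hB6.mul (BM.const _)).integrable P),
      ← integral_add (((hB5.mul (BM.const CC⁻¹)).add (hB6.mul (BM.const (log CC - 1)))).integrable P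
        |>.congr (ae_of_all _ fun p => by simp [div_eq_mul_inv])) (hB7.integrable P)]
    refine integral_mono ((hB4.integrable P).const_mul _) ?_ fun p => ?_
    · exact (((hB5.mul (BM.const CC⁻¹)).add (hB6.mul (BM.const (log CC - 1)))).add hB7).integrable P
        |>.congr (ae_of_all _ fun p => by simp [div_eq_mul_inv])
    · simp only
      have hj := jensen_step (x := fb p) (y := pb v p) (C := CC) (u + 1) (Nat.succ_ne_zero u)
        (hfb0 p) (hpb0 v p) hCCpos (by
          intro hy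
          by_cases he : σ.real ((c p.1) ⁻¹' {c p.1 p.2}) = 0
          · exact cave_eq_zero he
          · exfalso
            have hpos : 0 < σ.real ((c p.1) ⁻¹' {c p.1 p.2}) :=
              lt_of_le_of_ne measureReal_nonneg (Ne.symm he)
            have := one_le_cave (measurable_c_left hc p.1) (hψB v) (hψ1 v) hpos
            simp only [hpb] at hy
            linarith)
      have hm := mul_le_mul_of_nonneg_left hj (hθ0 v p.1 (c p.1 p.2))
      calc ((u + 1 : ℕ) : ℝ) * (θ v p.1 (c p.1 p.2) * (fb p * log (pb v p)))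
          = θ v p.1 (c p.1 p.2) * (((u + 1 : ℕ) : ℝ) * (fb p * log (pb v p))) := by ring
        _ ≤ _ := hm
        _ = _ := by ring
  -- step 6: replica bound
  have hstep6 : ∀ v, ∫ p, θ v p.1 (c p.1 p.2) * (pb v p) ^ (u + 1) ∂P ≤
      (2 : ℝ) ^ (((u : ℝ) + 1) / 3) * Mm := by
    intro v
    have hB5 : BM (fun p : Ω × S => θ v p.1 (c p.1 p.2) * (pb v p) ^ (u + 1)) :=
      (hθp v).mul ((hpbB v).pow _)
    rw [hP, integral_prod _ (hB5.integrable _)]
    exact replica_bound γ σ c hc hτ (θ v) (hθm v) (hθ0 v) (hθ1 v) (hθτ v) (hψB v) (hψ1 v) (hψ3 v) u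
      (by linarith) hW
  have hsum6 : ∑ v, (∫ p, θ v p.1 (c p.1 p.2) * (pb v p) ^ (u + 1) ∂P) / CC ≤ 1 := by
    rw [← Finset.sum_div, div_le_one hCCpos]
    calc ∑ v, ∫ p, θ v p.1 (c p.1 p.2) * (pb v p) ^ (u + 1) ∂P
        ≤ ∑ _v : V, (2 : ℝ) ^ (((u : ℝ) + 1) / 3) * Mm := Finset.sum_le_sum fun v _ => hstep6 v
      _ = CC := by
          rw [Finset.sum_const, Finset.card_univ, nsmul_eq_mul, hCC]
          ring
  -- the mass of `G fb`
  have hBfb : BM (fun p : Ω × S => G p * fb p) := hGB.mul hfbB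
  have hmass : ∫ p, G p * fb p ∂P ≤ 1 := by
    have h1 : ∫ p, G p * fb p ∂P ≤ ∫ p, fb p ∂P :=
      integral_mono (hBfb.integrable P) (hfbB.integrable P) fun p => by
        have := hG1 p
        have := hfb0 p
        simp only
        nlinarith
    have h2 : ∫ p, fb p ∂P = 1 := by
      rw [hP, integral_prod _ (hfbB.integrable _)]
      have : ∀ A, ∫ s, fb (A, s) ∂σ = 1 := fun A => by
        rw [← hf1]
        exact integral_cave_comp σ (measurable_c_left hc A) hfB
      simp [this]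
    linarith
  have hmass0 : 0 ≤ ∫ p, G p * fb p ∂P :=
    integral_nonneg fun p => mul_nonneg (hG0 p) (hfb0 p)
  -- summing step 5
  have hBflf : BM (fun p : Ω × S => G p * (fb p * log (fb p))) := hGB.mul (hfbB.mul_log hfb0)
  set D := ∫ p, G p * (fb p * log (fb p)) ∂P with hD
  have hsplitθ : ∀ (h : Ω × S → ℝ), BM h → ∑ v, ∫ p, θ v p.1 (c p.1 p.2) * h p ∂P = ∫ p, G p * h p ∂P := by
    intro h hh
    rw [← integral_finsetSum _ fun v _ => ((hθp v).mul hh).integrable P]
    refine integral_congr_ae (ae_of_all _ fun p => ?_)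
    simp only [hG]
    rw [Finset.sum_mul]
  set TC := ∑ v, ∫ p, θ v p.1 (c p.1 p.2) * (fb p * log (pb v p)) ∂P with hTC
  have hTCle : ((u + 1 : ℕ) : ℝ) * TC ≤ 1 + log CC + D := by
    rw [hTC, Finset.mul_sum]
    calc ∑ v, ((u + 1 : ℕ) : ℝ) * ∫ p, θ v p.1 (c p.1 p.2) * (fb p * log (pb v p)) ∂P
        ≤ ∑ v, ((∫ p, θ v p.1 (c p.1 p.2) * (pb v p) ^ (u + 1) ∂P) / CC +
          (∫ p, θ v p.1 (c p.1 p.2) * fb p ∂P) * (log CC - 1) +
          ∫ p, θ v p.1 (c p.1 p.2) * (fb p * log (fb p)) ∂P) :=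
          Finset.sum_le_sum fun v _ => hstep5 v
      _ = ∑ v, (∫ p, θ v p.1 (c p.1 p.2) * (pb v p) ^ (u + 1) ∂P) / CC +
          (∫ p, G p * fb p ∂P) * (log CC - 1) + D := by
          rw [Finset.sum_add_distrib, Finset.sum_add_distrib, ← Finset.sum_mul, hsplitθ _ hfbB,
            hsplitθ _ (hfbB.mul_log hfb0)]
      _ ≤ 1 + log CC + D := by
          have : (∫ p, G p * fb p ∂P) * (log CC - 1) ≤ log CC := by nlinarith
          linarith
  -- D lower bound
  have hDlow : - D ≤ rexp (-1) := by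
    have h1 : - D = ∫ p, - (G p * (fb p * log (fb p))) ∂P := by
      rw [integral_neg]
    rw [h1]
    calc ∫ p, - (G p * (fb p * log (fb p))) ∂P ≤ ∫ _p : Ω × S, rexp (-1) ∂P :=
          integral_mono (hBflf.neg.integrable P) (integrable_const _) fun p => by
            have h2 := neg_exp_le_mul_log (hfb0 p)
            have h3 := hG0 p
            have h4 := hG1 p
            have h5 : 0 < rexp (-1) := Real.exp_pos _
            simp only
            nlinarith
      _ = rexp (-1) := by simp [hP]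
  -- combining
  have hTA : ∑ v, ∫ p, θ v p.1 (c p.1 p.2) * (f p.2 * log (f p.2)) ∂P =
      ∫ p, G p * (f p.2 * log (f p.2)) ∂P :=
    hsplitθ _ ((hfB.mul_log hf.nonneg).comp measurable_snd)
  have hTB : ∑ v, ∫ p, θ v p.1 (c p.1 p.2) * (fb p * log (fb p)) ∂P = D :=
    hsplitθ _ (hfbB.mul_log hfb0)
  have hTotal : ∑ v, ∫ s, ug v s * log (ψ v s) ∂σ ≤ ∫ p, G p * (f p.2 * log (f p.2)) ∂P - D + TC := by
    calc ∑ v, ∫ s, ug v s * log (ψ v s) ∂σ
        = ∑ v, ∫ p, θ v p.1 (c p.1 p.2) * (f p.2 * log (ψ v p.2)) ∂P :=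
          Finset.sum_congr rfl fun v _ => hstep3 v
      _ ≤ ∑ v, (∫ p, θ v p.1 (c p.1 p.2) * (f p.2 * log (f p.2)) ∂P
            - ∫ p, θ v p.1 (c p.1 p.2) * (fb p * log (fb p)) ∂P
            + ∫ p, θ v p.1 (c p.1 p.2) * (fb p * log (pb v p)) ∂P) :=
          Finset.sum_le_sum fun v _ => hstep4 v
      _ = _ := by
          rw [Finset.sum_add_distrib, Finset.sum_sub_distrib, hTA, hTB]
  have hNpos : (0 : ℝ) < (u : ℝ) + 1 := by positivity
  have hcast : ((u + 1 : ℕ) : ℝ) = (u : ℝ) + 1 := by push_cast; ring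
  rw [hcast] at hTCle
  have hTCdiv : TC ≤ (1 + log CC) / ((u : ℝ) + 1) + D / ((u : ℝ) + 1) := by
    rw [← add_div, le_div_iff₀ hNpos]
    linarith
  have hDpart : - D + D / ((u : ℝ) + 1) ≤ rexp (-1) := by
    have h5 : 0 < rexp (-1) := Real.exp_pos _
    rcases le_or_gt 0 D with hD0 | hD0
    · have h6 : D / ((u : ℝ) + 1) ≤ D := div_le_self hD0 (by
        have : (0 : ℝ) ≤ u := Nat.cast_nonneg u
        linarith)
      linarith
    · have h6 : D / ((u : ℝ) + 1) ≤ 0 := div_nonpos_of_nonpos_of_nonneg hD0.le hNpos.le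
      linarith
  calc ∑ v, Hent σ (ug v) ≤ ∑ v, 3 * ∫ s, ug v s * log (ψ v s) ∂σ :=
        Finset.sum_le_sum fun v _ => hstep2 v
    _ = 3 * ∑ v, ∫ s, ug v s * log (ψ v s) ∂σ := by rw [Finset.mul_sum]
    _ ≤ _ := by
        apply mul_le_mul_of_nonneg_left _ (by norm_num)
        linarith

end Vale.Agent.P309
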