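import Vale.Agent.P309.Entropy

/-!
Tools for the gain inequality: bounded measurable functions, averages on the cells of a partition.
-/

open MeasureTheory ProbabilityTheory Real Set Filter Topology
open scoped RealInnerProductSpace ENNReal

namespace Vale.Agent.P309

set_option linter.unusedSectionVars false

/-- Bounded measurable functions. -/
structure BM {X : Type*} [MeasurableSpace X] (h : X → ℝ) : Prop where
  meas : Measurable h
  bdd : ∃ K : ℝ, ∀ x, |h x| ≤ K

namespace BM

variable {X Y : Type*} [MeasurableSpace X] [MeasurableSpace Y]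

lemma integrable {h : X → ℝ} (hh : BM h) (μ : Measure X) [IsFiniteMeasure μ] : Integrable h μ := by
  obtain ⟨K, hK⟩ := hh.bdd
  exact Integrable.of_bound hh.meas.aestronglyMeasurable K (ae_of_all _ fun x => by
    rw [Real.norm_eq_abs]; exact hK x)

lemma const (c : ℝ) : BM (fun _ : X => c) := ⟨measurable_const, |c|, fun _ => le_rfl⟩

lemma add {a b : X → ℝ} (ha : BM a) (hb : BM b) : BM (fun x => a x + b x) := by
  obtain ⟨K, hK⟩ := ha.bdd
  obtain ⟨L, hL⟩ := hb.bdd
  exact ⟨ha.meas.add hb.meas, K + L, fun x => (abs_add_le _ _).trans (add_le_add (hK x) (hL x))⟩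

lemma neg {a : X → ℝ} (ha : BM a) : BM (fun x => - a x) := by
  obtain ⟨K, hK⟩ := ha.bdd
  exact ⟨ha.meas.neg, K, fun x => by rw [abs_neg]; exact hK x⟩

lemma sub {a b : X → ℝ} (ha : BM a) (hb : BM b) : BM (fun x => a x - b x) := by
  simpa [sub_eq_add_neg] using ha.add hb.neg

lemma mul {a b : X → ℝ} (ha : BM a) (hb : BM b) : BM (fun x => a x * b x) := by
  obtain ⟨K, hK⟩ := ha.bdd
  obtain ⟨L, hL⟩ := hb.bdd
  refine ⟨ha.meas.mul hb.meas, K * L, fun x => ?_⟩
  rw [abs_mul]
  exact mul_le_mul (hK x) (hL x) (abs_nonneg _) ((abs_nonneg _).trans (hK x))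

lemma pow {a : X → ℝ} (ha : BM a) (n : ℕ) : BM (fun x => a x ^ n) := by
  induction n with
  | zero => simpa using const (X := X) 1
  | succ n ih => simpa [pow_succ] using ih.mul ha

lemma sum {α : Type*} (t : Finset α) {a : α → X → ℝ} (ha : ∀ i, BM (a i)) :
    BM (fun x => ∑ i ∈ t, a i x) := by
  classical
  induction t using Finset.induction_on with
  | empty => simpa using const (X := X) 0
  | insert i t hi ih =>
    simp only [Finset.sum_insert hi]
    exact (ha i).add ih

lemma comp {h : Y → ℝ} (hh : BM h) {g : X → Y} (hg : Measurable g) : BM (fun x => h (g x)) := by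
  obtain ⟨K, hK⟩ := hh.bdd
  exact ⟨hh.meas.comp hg, K, fun x => hK _⟩

lemma mul_log {h : X → ℝ} (hh : BM h) (h0 : ∀ x, 0 ≤ h x) : BM (fun x => h x * log (h x)) := by
  obtain ⟨K, hK⟩ := hh.bdd
  refine ⟨hh.meas.mul hh.meas.log, 1 + K * K, fun x => ?_⟩
  have hx := h0 x
  have hxK : h x ≤ K := by simpa [abs_of_nonneg hx] using hK x
  have hK0 : 0 ≤ K := hx.trans hxK
  rcases le_or_gt (h x) 1 with h1 | h1
  · rcases hx.eq_or_lt with h2 | h2
    · rw [← h2]; simp; positivity
    · have := Real.abs_log_mul_self_lt (h x) h2 h1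
      rw [mul_comm]
      nlinarith [mul_nonneg hK0 hK0]
  · have hl : 0 ≤ log (h x) := Real.log_nonneg h1.le
    have hl2 : log (h x) ≤ h x := (Real.log_le_sub_one_of_pos (by linarith)).trans (by linarith)
    rw [abs_of_nonneg (by positivity)]
    nlinarith

lemma log_of_one_le {h : X → ℝ} (hh : BM h) (h1 : ∀ x, 1 ≤ h x) : BM (fun x => log (h x)) := by
  obtain ⟨K, hK⟩ := hh.bdd
  refine ⟨hh.meas.log, K, fun x => ?_⟩
  have hx := h1 x
  have hl : 0 ≤ log (h x) := Real.log_nonneg hx
  rw [abs_of_nonneg hl]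
  have h2 : log (h x) ≤ h x := (Real.log_le_sub_one_of_pos (by linarith)).trans (by linarith)
  exact h2.trans ((le_abs_self _).trans (hK x))

lemma of_bddNN {h : X → ℝ} (hh : BddNN h) : BM h := by
  obtain ⟨F, hF⟩ := hh.bdd
  exact ⟨hh.meas, F, fun x => by rw [abs_of_nonneg (hh.nonneg x)]; exact hF x⟩

end BM

section Partition

variable {S ι : Type*} [MeasurableSpace S] [MeasurableSpace ι] [Countable ι]
  [MeasurableSingletonClass ι]

/-- the average of `h` over the cell `i` of the partition given by `C` -/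
noncomputable def cave (σ : Measure S) (C : S → ι) (h : S → ℝ) (i : ι) : ℝ :=
  (∫ s in C ⁻¹' {i}, h s ∂σ) / σ.real (C ⁻¹' {i})

variable {σ : Measure S} [IsProbabilityMeasure σ]

lemma hasSum_cells {C : S → ι} (hC : Measurable C) {h : S → ℝ} (hh : BM h) :
    HasSum (fun i => ∫ s in C ⁻¹' {i}, h s ∂σ) (∫ s, h s ∂σ) := by
  have h1 := hasSum_integral_iUnion (μ := σ) (f := h) (s := fun i : ι => C ⁻¹' {i})
    (fun i => hC (measurableSet_singleton i))
    (fun i j hij => by
      refine Set.disjoint_left.2 fun s hs hs' => hij ?_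
      simp only [mem_preimage, mem_singleton_iff] at hs hs'
      rw [← hs, ← hs'])
    (hh.integrable σ).integrableOn
  have h2 : (⋃ i, C ⁻¹' {i}) = univ := by
    ext s; simp
  rwa [h2, setIntegral_univ] at h1

/-- an elementary inequality -/
lemma mul_log_ineq {x a : ℝ} (hx : 0 ≤ x) (ha : 0 < a) : x * log a - x * log x ≤ a - x := by
  rcases hx.eq_or_lt with rfl | hx
  · simpa using ha.le
  · have h1 := Real.log_le_sub_one_of_pos (div_pos ha hx)
    rw [Real.log_div ha.ne' hx.ne'] at h1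
    have h2 := mul_le_mul_of_nonneg_left h1 hx.le
    have h3 : x * (a / x - 1) = a - x := by field_simp
    rw [h3] at h2
    linarith

/-- Gibbs on one cell. -/
lemma per_cell {P : Set S} (hP : MeasurableSet P) (he : 0 < σ.real P)
    {f ψ : S → ℝ} (hf : BddNN f) (hψ : BM ψ) (hψ1 : ∀ s, 1 ≤ ψ s) :
    ∫ s in P, f s * log (ψ s) ∂σ ≤ ∫ s in P, f s * log (f s) ∂σ -
      (∫ s in P, f s ∂σ) * log ((∫ s in P, f s ∂σ) / σ.real P) +
      (∫ s in P, f s ∂σ) * log ((∫ s in P, ψ s ∂σ) / σ.real P) := by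
  set e := σ.real P with he'
  set Z := ∫ s in P, f s ∂σ with hZ
  set I := ∫ s in P, ψ s ∂σ with hI
  have hfB := BM.of_bddNN hf
  have hI1 : e ≤ I := by
    have : ∫ s in P, (1 : ℝ) ∂σ ≤ ∫ s in P, ψ s ∂σ :=
      setIntegral_mono ((BM.const 1).integrable σ).integrableOn (hψ.integrable σ).integrableOn
        (fun s => hψ1 s)
    simpa [he'] using this
  have hIpos : 0 < I := he.trans_le hI1
  have hZ0 : 0 ≤ Z := setIntegral_nonneg hP fun s _ => hf.nonneg s
  have hint1 : Integrable (fun s => f s * log (ψ s)) (σ.restrict P) :=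
    ((hfB.mul (hψ.log_of_one_le hψ1)).integrable σ).integrableOn
  have hint2 : Integrable (fun s => f s * log (f s)) (σ.restrict P) :=
    ((hfB.mul_log hf.nonneg).integrable σ).integrableOn
  have hintf : Integrable f (σ.restrict P) := (hfB.integrable σ).integrableOn
  have hintψ : Integrable ψ (σ.restrict P) := (hψ.integrable σ).integrableOn
  rcases hZ0.eq_or_lt with hZe | hZp
  · -- `f` vanishes almost everywhere on the cell
    have h0 : f =ᵐ[σ.restrict P] 0 := by
      have := (integral_eq_zero_iff_of_nonneg (f := f) (μ := σ.restrict P)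
        (fun s => hf.nonneg s) hintf).1 hZe.symm
      exact this
    have h1 : ∫ s in P, f s * log (ψ s) ∂σ = 0 := by
      rw [integral_congr_ae (g := fun _ => (0 : ℝ))]
      · simp
      · filter_upwards [h0] with s hs
        simp [hs]
    have h2 : ∫ s in P, f s * log (f s) ∂σ = 0 := by
      rw [integral_congr_ae (g := fun _ => (0 : ℝ))]
      · simp
      · filter_upwards [h0] with s hs
        simp [hs]
    rw [h1, h2, ← hZe]
    simp
  · -- main case
    have hr : 0 < Z / e := div_pos hZp he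
    have hY : 0 < I / e := div_pos hIpos he
    set b := (Z / e) / (I / e) with hb
    have hb0 : 0 < b := div_pos hr hY
    have hptw : ∀ s, f s * log (ψ s) - f s * log (f s) + f s * log (Z / e) - f s * log (I / e) ≤
        ψ s * b - f s := by
      intro s
      have hψs : 0 < ψ s := lt_of_lt_of_le one_pos (hψ1 s)
      have := mul_log_ineq (hf.nonneg s) (mul_pos hψs hb0)
      rw [Real.log_mul hψs.ne' hb0.ne', hb, Real.log_div hr.ne' hY.ne'] at this
      rw [← hb] at this
      nlinarith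
    have hint := setIntegral_mono (s := P) (μ := σ)
      (f := fun s => f s * log (ψ s) - f s * log (f s) + f s * log (Z / e) - f s * log (I / e))
      (g := fun s => ψ s * b - f s)
      (((hint1.sub hint2).add (hintf.mul_const _)).sub (hintf.mul_const _))
      ((hintψ.mul_const _).sub hintf) hptw
    have e1 : ∫ s in P, (f s * log (ψ s) - f s * log (f s) + f s * log (Z / e) - f s * log (I / e)) ∂σ
        = ∫ s in P, f s * log (ψ s) ∂σ - ∫ s in P, f s * log (f s) ∂σ + Z * log (Z / e) -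
          Z * log (I / e) := by
      have a1 := integral_sub (μ := σ.restrict P) hint1 hint2
      have a2 := integral_add (μ := σ.restrict P) (hint1.sub hint2) (hintf.mul_const (log (Z / e)))
      have a3 := integral_sub (μ := σ.restrict P)
        ((hint1.sub hint2).add (hintf.mul_const (log (Z / e)))) (hintf.mul_const (log (I / e)))
      simp only [Pi.sub_apply, Pi.add_apply] at a1 a2 a3
      rw [a3, a2, a1, integral_mul_const, integral_mul_const]
    have e2 : ∫ s in P, (ψ s * b - f s) ∂σ = I * b - Z := by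
      rw [integral_sub (hintψ.mul_const _) hintf, integral_mul_const]
    have e3 : I * b = Z := by
      rw [hb]
      field_simp
    rw [e1, e2, e3] at hint
    linarith

lemma cave_nonneg {C : S → ι} {f : S → ℝ} (hf : ∀ s, 0 ≤ f s) (i : ι) : 0 ≤ cave σ C f i :=
  div_nonneg (integral_nonneg hf) measureReal_nonneg

lemma cave_eq_zero {C : S → ι} {f : S → ℝ} {i : ι} (h : σ.real (C ⁻¹' {i}) = 0) :
    cave σ C f i = 0 := by
  simp [cave, h]

/-- bounds of the average -/
lemma cave_le {C : S → ι} (hC : Measurable C) {f : S → ℝ} (hf : BM f) {F : ℝ} (hF : 0 ≤ F)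
    (hfF : ∀ s, f s ≤ F) (i : ι) : cave σ C f i ≤ F := by
  unfold cave
  have hP := hC (measurableSet_singleton i)
  apply div_le_of_le_mul₀ measureReal_nonneg hF
  have : ∫ s in C ⁻¹' {i}, f s ∂σ ≤ ∫ s in C ⁻¹' {i}, F ∂σ :=
    setIntegral_mono (hf.integrable σ).integrableOn ((BM.const F).integrable σ).integrableOn hfF
  simpa [mul_comm] using this

lemma one_le_cave {C : S → ι} (hC : Measurable C) {ψ : S → ℝ} (hψ : BM ψ) (hψ1 : ∀ s, 1 ≤ ψ s)
    {i : ι} (he : 0 < σ.real (C ⁻¹' {i})) : 1 ≤ cave σ C ψ i := by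
  unfold cave
  rw [le_div_iff₀ he, one_mul]
  have : ∫ s in C ⁻¹' {i}, (1 : ℝ) ∂σ ≤ ∫ s in C ⁻¹' {i}, ψ s ∂σ :=
    setIntegral_mono ((BM.const 1).integrable σ).integrableOn (hψ.integrable σ).integrableOn hψ1
  simpa using this

lemma cave_abs_le {C : S → ι} (hC : Measurable C) {f : S → ℝ} (hf : BM f) {K : ℝ}
    (hK : ∀ s, |f s| ≤ K) (i : ι) : |cave σ C f i| ≤ K := by
  by_cases he : σ.real (C ⁻¹' {i}) = 0
  · rw [cave_eq_zero he]
    simp
    by_cases hS : Nonempty S
    · obtain ⟨s⟩ := hS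
      exact (abs_nonneg _).trans (hK s)
    · exfalso
      have : IsEmpty S := not_nonempty_iff.1 hS
      have h1 : σ univ = 1 := measure_univ
      simp [Measure.eq_zero_of_isEmpty σ] at h1
  · have hpos : 0 < σ.real (C ⁻¹' {i}) := lt_of_le_of_ne measureReal_nonneg (Ne.symm he)
    unfold cave
    rw [abs_div, abs_of_pos hpos, div_le_iff₀ hpos]
    have h1 : |∫ s in C ⁻¹' {i}, f s ∂σ| ≤ ∫ s in C ⁻¹' {i}, |f s| ∂σ :=
      abs_integral_le_integral_abs
    have h2 : ∫ s in C ⁻¹' {i}, |f s| ∂σ ≤ ∫ s in C ⁻¹' {i}, K ∂σ :=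
      setIntegral_mono (hf.integrable σ).abs.integrableOn ((BM.const K).integrable σ).integrableOn hK
    have h3 : ∫ s in C ⁻¹' {i}, K ∂σ = K * σ.real (C ⁻¹' {i}) := by
      simp [mul_comm]
    linarith

/-- values of integrals of cell functions -/
lemma setIntegral_cell {C : S → ι} (hC : Measurable C) (g : ι → ℝ) (i : ι) :
    ∫ s in C ⁻¹' {i}, g (C s) ∂σ = g i * σ.real (C ⁻¹' {i}) := by
  have hP := hC (measurableSet_singleton i)
  rw [setIntegral_congr_fun (g := fun _ => g i) hP (fun s hs => by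
    simp only [mem_preimage, mem_singleton_iff] at hs
    simp [hs])]
  simp [mul_comm]

lemma setIntegral_cell_mul {C : S → ι} (hC : Measurable C) (g : ι → ℝ) (h : S → ℝ) (i : ι) :
    ∫ s in C ⁻¹' {i}, g (C s) * h s ∂σ = g i * ∫ s in C ⁻¹' {i}, h s ∂σ := by
  have hP := hC (measurableSet_singleton i)
  rw [setIntegral_congr_fun (g := fun s => g i * h s) hP (fun s hs => by
    simp only [mem_preimage, mem_singleton_iff] at hs
    simp [hs])]
  rw [integral_const_mul]

/-- The averaged form of the Gibbs inequality: sum over all cells. -/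
theorem cell_gibbs {C : S → ι} (hC : Measurable C) (θ : ι → ℝ) (hθ0 : ∀ i, 0 ≤ θ i)
    (hθK : ∀ i, θ i ≤ 1) {f ψ : S → ℝ} (hf : BddNN f) (hψ : BM ψ) (hψ1 : ∀ s, 1 ≤ ψ s) :
    ∫ s, θ (C s) * (f s * log (ψ s)) ∂σ ≤ ∫ s, θ (C s) * (f s * log (f s)) ∂σ
      - ∫ s, θ (C s) * (cave σ C f (C s) * log (cave σ C f (C s))) ∂σ
      + ∫ s, θ (C s) * (cave σ C f (C s) * log (cave σ C ψ (C s))) ∂σ := by
  have hfB := BM.of_bddNN hf
  have hθm : Measurable θ := Measurable.of_discrete
  have hθB : BM (fun s => θ (C s)) :=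
    ⟨hθm.comp hC, 1, fun s => by rw [abs_of_nonneg (hθ0 _)]; exact hθK _⟩
  obtain ⟨F, hF⟩ := hfB.bdd
  obtain ⟨K, hK⟩ := hψ.bdd
  have hcfm : Measurable (cave σ C f) := Measurable.of_discrete
  have hcψm : Measurable (cave σ C ψ) := Measurable.of_discrete
  have hcf : BM (fun s => cave σ C f (C s)) := ⟨hcfm.comp hC, F, fun s => cave_abs_le hC hfB hF _⟩
  have hcψ : BM (fun s => cave σ C ψ (C s)) := ⟨hcψm.comp hC, K, fun s => cave_abs_le hC hψ hK _⟩
  have hcψ' : BM (fun s => max 1 (cave σ C ψ (C s))) := by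
    refine ⟨(measurable_const.max hcψ.meas), max 1 K, fun s => ?_⟩
    have hk := cave_abs_le (σ := σ) hC hψ hK (C s)
    rw [abs_of_nonneg (le_max_of_le_left zero_le_one)]
    exact max_le_max le_rfl ((le_abs_self _).trans hk)
  have hlogψ : BM (fun s => log (cave σ C ψ (C s))) := by
    obtain ⟨K', hK'⟩ := (hcψ'.log_of_one_le (fun s => le_max_left _ _)).bdd
    refine ⟨hcψ.meas.log, K', fun s => ?_⟩
    by_cases he : σ.real (C ⁻¹' {C s}) = 0
    · rw [cave_eq_zero he]
      simp only [log_zero, abs_zero]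
      exact (abs_nonneg _).trans (hK' s)
    · have hpos : 0 < σ.real (C ⁻¹' {C s}) := lt_of_le_of_ne measureReal_nonneg (Ne.symm he)
      have h1 := one_le_cave hC hψ hψ1 hpos
      have := hK' s
      rwa [max_eq_right h1] at this
  have h1 := hasSum_cells (σ := σ) hC (hθB.mul (hfB.mul (hψ.log_of_one_le hψ1)))
  have h2 := hasSum_cells (σ := σ) hC (hθB.mul (hfB.mul_log hf.nonneg))
  have h3 := hasSum_cells (σ := σ) hC (hθB.mul (hcf.mul_log fun s => cave_nonneg hf.nonneg _))
  have h4 := hasSum_cells (σ := σ) hC (hθB.mul (hcf.mul hlogψ))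
  have := hasSum_le (f := fun i => ∫ s in C ⁻¹' {i}, θ (C s) * (f s * log (ψ s)) ∂σ)
    (g := fun i => ∫ s in C ⁻¹' {i}, θ (C s) * (f s * log (f s)) ∂σ
      - ∫ s in C ⁻¹' {i}, θ (C s) * (cave σ C f (C s) * log (cave σ C f (C s))) ∂σ
      + ∫ s in C ⁻¹' {i}, θ (C s) * (cave σ C f (C s) * log (cave σ C ψ (C s))) ∂σ)
    ?_ h1 ((h2.sub h3).add h4)
  · exact this
  · intro i
    have hP := hC (measurableSet_singleton i)
    by_cases he : σ.real (C ⁻¹' {i}) = 0
    · have hnull : σ (C ⁻¹' {i}) = 0 := by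
        rwa [measureReal_eq_zero_iff] at he
      simp [Measure.restrict_eq_zero.2 hnull]
    · have hpos : 0 < σ.real (C ⁻¹' {i}) := lt_of_le_of_ne measureReal_nonneg (Ne.symm he)
      have hg := per_cell hP hpos hf hψ hψ1
      rw [setIntegral_cell_mul hC θ, setIntegral_cell_mul hC θ]
      have e3 : ∫ s in C ⁻¹' {i}, θ (C s) * (cave σ C f (C s) * log (cave σ C f (C s))) ∂σ =
          θ i * ((∫ s in C ⁻¹' {i}, f s ∂σ) * log (cave σ C f i)) := by
        rw [setIntegral_cell hC (fun j => θ j * (cave σ C f j * log (cave σ C f j))) i]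
        unfold cave
        field_simp
      have e4 : ∫ s in C ⁻¹' {i}, θ (C s) * (cave σ C f (C s) * log (cave σ C ψ (C s))) ∂σ =
          θ i * ((∫ s in C ⁻¹' {i}, f s ∂σ) * log (cave σ C ψ i)) := by
        rw [setIntegral_cell hC (fun j => θ j * (cave σ C f j * log (cave σ C ψ j))) i]
        unfold cave
        field_simp
      rw [e3, e4]
      have := mul_le_mul_of_nonneg_left hg (hθ0 i)
      unfold cave
      nlinarith

end Partition

end Vale.Agent.P309
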