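import Vale.Agent.P309.Defs

/-!
The learner model: a randomized learner with a finite state set, reading exact labels.
-/

open MeasureTheory ProbabilityTheory Real Set Filter Topology
open scoped RealInnerProductSpace ENNReal

namespace Vale.Agent.P309

/-- A learner with state set `V`: randomized transitions given by Markov kernels that depend on
the index, the state and the current pair, and a randomized output depending on the final state. -/
structure Learner (d : ℕ) (V : Type) [Fintype V] where
  /-- law of the initial state -/
  init : V → ℝ
  init_nonneg : ∀ v, 0 ≤ init v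
  init_sum : ∑ v, init v = 1
  /-- `trans t v x y v'` is the probability of moving to `v'` from `v` at index `t` on the pair
  `(x, y)` -/
  trans : ℕ → V → E d → ℝ → V → ℝ
  trans_meas : ∀ t v v', Measurable fun p : E d × ℝ => trans t v p.1 p.2 v'
  trans_nonneg : ∀ t v x y v', 0 ≤ trans t v x y v'
  trans_sum : ∀ t v x y, ∑ v', trans t v x y v' = 1
  /-- law of the output in state `v` -/
  output : V → Measure (E d)
  output_prob : ∀ v, IsProbabilityMeasure (output v)

variable {d : ℕ} {V : Type} [Fintype V]

/-- The law of the state after `t` samples when the signal is `s`. -/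
noncomputable def Learner.law (L : Learner d V) : ℕ → E d → V → ℝ
  | 0, _, v => L.init v
  | t + 1, s, v' => ∑ v, L.law t s v * ∫ x, L.trans t v x ⟪x, s⟫ v' ∂(stdGaussian (E d))

/-- The probability that the output after `T` samples is within angle `ε` of a uniform signal. -/
noncomputable def Learner.success (L : Learner d V) (T : ℕ) (ε : ℝ) : ℝ :=
  ∫ s, ∑ v, L.law T s v * (L.output v).real {ŝ | ‖ŝ‖ = 1 ∧ arccos ⟪ŝ, s⟫ ≤ ε} ∂(sphereM d)

end Vale.Agent.P309
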